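import Vale.Agent.P032.S5.H483.Irr

/-!
# P032: solid rays at a centre with two pairs of double arcs

`Ray V z u`: the points `z + r u`, `r > 0` small, are in `V`.  At a point `z` with
`T z = {a, b, c, d}`, an exact `ab`-arc and an exact `cd`-arc on `S(z)`, the two rays at `z`
orthogonal to a direction of the `cd`-arc are one in `U a`, the other in `U b` (`Irr.d0`).
-/

open Set Filter Topology Metric

noncomputable section

namespace Vale.Agent.P032.Six

variable {k : ℕ} {U : Fin k → Set ℂ} {T : ℂ → Set (Fin k)}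

/-- inner product -/
def ip (a b : ℂ) : ℝ := a.re * b.re + a.im * b.im

/-- the points `z + r u`, `r > 0` small, are in `V` -/
def Ray (V : Set ℂ) (z u : ℂ) : Prop := ∀ᶠ r : ℝ in 𝓝[>] 0, z + r * u ∈ V

theorem cis_re (t : ℝ) : (cis t).re = Real.cos t := by simp [cis, Complex.exp_ofReal_mul_I_re]

theorem cis_im (t : ℝ) : (cis t).im = Real.sin t := by simp [cis, Complex.exp_ofReal_mul_I_im]

theorem ip_sq {n : ℂ} (hn : ‖n‖ = 1) : n.re ^ 2 + n.im ^ 2 = 1 := by
  have := Complex.sq_norm n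
  rw [hn, Complex.normSq_apply] at this
  nlinarith

/-- the squared distance along a line -/
theorem sq_line (z u y : ℂ) (r : ℝ) :
    dist (z + r * u) y ^ 2 = dist z y ^ 2 - 2 * r * ip u (y - z) + r ^ 2 * ip u u := by
  rw [sq_dist, sq_dist]
  simp [ip]
  ring

theorem hasDerivAt_line (z u y : ℂ) :
    HasDerivAt (fun r : ℝ => dist (z + r * u) y ^ 2 - dist z y ^ 2) (-2 * ip u (y - z)) 0 := by
  have h : (fun r : ℝ => dist (z + r * u) y ^ 2 - dist z y ^ 2) =
      fun r : ℝ => -2 * ip u (y - z) * r + r ^ 2 * ip u u := by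
    funext r
    rw [sq_line]; ring
  rw [h]
  have h1 : HasDerivAt (fun r : ℝ => -2 * ip u (y - z) * r) (-2 * ip u (y - z) * 1) 0 :=
    (hasDerivAt_id (0 : ℝ)).const_mul _
  have h2 : HasDerivAt (fun r : ℝ => r ^ 2 * ip u u) (((2 : ℕ) : ℝ) * (0 : ℝ) ^ (2 - 1) * ip u u) 0 :=
    (hasDerivAt_pow 2 (0 : ℝ)).mul_const _
  refine (h1.add h2).congr_deriv ?_
  simp

/-- the unit circle about `g` near `y` crosses the line `z + r u` near `z` -/
theorem line_crossing {z u y : ℂ} (h0 : dist z y = 1) (hip : ip u (y - z) ≠ 0) {η : ℝ}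
    (hη : 0 < η) : ∀ᶠ g in 𝓝 y, ∃ r : ℝ, |r| < η ∧ dist (z + r * u) g = 1 := by
  obtain ⟨t1, t2, h1, h2, h3, h4⟩ := both_signs (hasDerivAt_line z u y) (by simp)
    (by simpa using hip) hη
  rw [h0] at h3 h4
  have h3' : dist (z + t1 * u) y < 1 := by
    have := dist_nonneg (x := z + t1 * u) (y := y)
    nlinarith
  have h4' : 1 < dist (z + t2 * u) y := by
    have := dist_nonneg (x := z + t2 * u) (y := y)
    nlinarith
  have e1 : ∀ᶠ g in 𝓝 y, dist (z + t1 * u) g < 1 :=
    (continuous_const.dist continuous_id).continuousAt.eventually (Iio_mem_nhds h3')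
  have e2 : ∀ᶠ g in 𝓝 y, 1 < dist (z + t2 * u) g :=
    (continuous_const.dist continuous_id).continuousAt.eventually (Ioi_mem_nhds h4')
  filter_upwards [e1, e2] with g hg1 hg2
  have hcont : ContinuousOn (fun t : ℝ => dist (z + t * u) g) (uIcc t1 t2) := by fun_prop
  have hmem : (1 : ℝ) ∈ uIcc (dist (z + t1 * u) g) (dist (z + t2 * u) g) := by
    rw [uIcc_of_le (by linarith)]; exact ⟨hg1.le, hg2.le⟩
  obtain ⟨t, ht, ht1⟩ := intermediate_value_uIcc hcont hmem
  refine ⟨t, ?_, ht1⟩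
  rw [sub_zero, abs_lt] at h1 h2
  rw [abs_lt]
  rcases le_total t1 t2 with h | h
  · rw [uIcc_of_le h] at ht
    exact ⟨by linarith [ht.1], by linarith [ht.2]⟩
  · rw [uIcc_of_ge h] at ht
    exact ⟨by linarith [ht.1], by linarith [ht.2]⟩

/-- a sweeping argument: if `z + cis t`, `t` between `t1` and `t2`, carry the colour `i`, and the
ends are on different sides of `S(w)`, then `i ∉ Pal w` -/
theorem Mx.swept (h : Mx U) {z w : ℂ} {t1 t2 : ℝ} {i : Fin k}
    (hJ : ∀ t ∈ uIcc t1 t2, i ∈ Pal U (z + cis t)) (h1 : dist (z + cis t1) w < 1)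
    (h2 : 1 < dist (z + cis t2) w) : i ∉ Pal U w := by
  intro hw
  have e1 : ∀ᶠ g in 𝓝 w, dist (z + cis t1) g < 1 :=
    (continuous_const.dist continuous_id).continuousAt.eventually (Iio_mem_nhds h1)
  have e2 : ∀ᶠ g in 𝓝 w, 1 < dist (z + cis t2) g :=
    (continuous_const.dist continuous_id).continuousAt.eventually (Ioi_mem_nhds h2)
  obtain ⟨g, ⟨hg1, hg2⟩, hgU⟩ := mem_closure_iff_nhds.1 hw _ (e1.and e2)
  have hcont : ContinuousOn (fun t => dist (z + cis t) g) (uIcc t1 t2) :=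
    ((continuous_const.add continuous_cis).dist continuous_const).continuousOn
  have hmem : (1 : ℝ) ∈ uIcc (dist (z + cis t1) g) (dist (z + cis t2) g) := by
    rw [uIcc_of_le (by linarith [hg1, hg2])]; exact ⟨hg1.le, hg2.le⟩
  obtain ⟨t, ht, ht1⟩ := intermediate_value_uIcc hcont hmem
  exact h.notMem' hgU (by rw [dist_comm]; exact ht1) (hJ t ht)

/-- a number `δ` for a ray -/
theorem Ray.exists_delta {V : Set ℂ} {z u : ℂ} (h : Ray V z u) :
    ∃ δ > 0, ∀ r : ℝ, 0 < r → r < δ → z + r * u ∈ V := by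
  obtain ⟨δ, hδ, hd⟩ := mem_nhdsGT_iff_exists_Ioo_subset.1 h
  exact ⟨δ, hδ, fun r h1 h2 => hd ⟨h1, h2⟩⟩

/-- a ray of `U i` between a point far from `x` and a point near `x` -/
theorem Mx.ray_cross (h : Mx U) {i : Fin k} {z u x : ℂ} {r : ℝ} (hr : 0 < r)
    (hu : ∀ s : ℝ, 0 < s → s < r → z + s * u ∈ U i)
    (hx : (1 < dist x z ∧ dist x (z + r * u) < 1) ∨ (dist x z < 1 ∧ 1 < dist x (z + r * u))) :
    i ∉ Pal U x := by
  have hcont : ContinuousOn (fun t : ℝ => dist x (z + t * u)) (uIcc 0 r) := by fun_prop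
  have hmem : (1 : ℝ) ∈ uIcc (dist x (z + (0 : ℝ) * u)) (dist x (z + r * u)) := by
    simp only [Complex.ofReal_zero, zero_mul, add_zero]
    rcases hx with ⟨h1, h2⟩ | ⟨h1, h2⟩
    · rw [uIcc_of_ge (by linarith)]; exact ⟨h2.le, h1.le⟩
    · rw [uIcc_of_le (by linarith)]; exact ⟨h1.le, h2.le⟩
  obtain ⟨t, ht, ht1⟩ := intermediate_value_uIcc hcont hmem
  rw [uIcc_of_le hr.le] at ht
  have ht0 : t ≠ 0 := by
    rintro rfl
    simp only [Complex.ofReal_zero, zero_mul, add_zero] at ht1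
    rcases hx with ⟨h1, h2⟩ | ⟨h1, h2⟩ <;> linarith
  have htr : t ≠ r := by
    rintro rfl
    rcases hx with ⟨h1, h2⟩ | ⟨h1, h2⟩ <;> linarith
  have h1 := hu t (lt_of_le_of_ne ht.1 (Ne.symm ht0)) (lt_of_le_of_ne ht.2 htr)
  exact h.notMem' h1 (by rw [dist_comm]; exact ht1)

/-- outside `S(z)` near `V` there is no `i` if a ray at `z` towards `V` is in `U i` -/
theorem Mx.far (h : Mx U) {i : Fin k} {z u V : ℂ} (hu : Ray (U i) z u) (hV : dist V z = 1)
    (hs : 0 < ip u (V - z)) : ∀ᶠ x in 𝓝 V, 1 < dist x z → i ∉ Pal U x := by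
  obtain ⟨δ, hδ, hd⟩ := hu.exists_delta
  obtain ⟨r, hr0, hrδ, hr⟩ : ∃ r : ℝ, 0 < r ∧ r < δ ∧ r * ip u u < 2 * ip u (V - z) := by
    have h0 : 0 ≤ ip u u := by unfold ip; nlinarith [sq_nonneg u.re, sq_nonneg u.im]
    refine ⟨min (δ / 2) (ip u (V - z) / (ip u u + 1)), by positivity,
      lt_of_le_of_lt (min_le_left _ _) (by linarith), ?_⟩
    have h1 : min (δ / 2) (ip u (V - z) / (ip u u + 1)) ≤ ip u (V - z) / (ip u u + 1) :=
      min_le_right _ _
    have h2 : ip u (V - z) / (ip u u + 1) * ip u u ≤ ip u (V - z) := by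
      rw [div_mul_eq_mul_div, div_le_iff₀ (by linarith)]
      nlinarith
    nlinarith [mul_le_mul_of_nonneg_right h1 h0]
  have h3 : dist V (z + r * u) < 1 := by
    have h4 := sq_line z u V r
    rw [dist_comm z V, hV] at h4
    have h5 := dist_nonneg (x := z + r * u) (y := V)
    rw [dist_comm]
    nlinarith
  have e1 : ∀ᶠ x in 𝓝 V, dist x (z + r * u) < 1 :=
    (continuous_id.dist continuous_const).continuousAt.eventually (Iio_mem_nhds h3)
  filter_upwards [e1] with x hx hxz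
  exact h.ray_cross hr0 (fun s h1 h2 => hd s h1 (h2.trans hrδ)) (Or.inl ⟨hxz, hx⟩)

/-- inside `S(z)` near `V` there is no `i` if a ray at `z` away from `V` is in `U i` -/
theorem Mx.near (h : Mx U) {i : Fin k} {z u V : ℂ} (hu : Ray (U i) z u) (hV : dist V z = 1)
    (hs : ip u (V - z) < 0) : ∀ᶠ x in 𝓝 V, dist x z < 1 → i ∉ Pal U x := by
  obtain ⟨δ, hδ, hd⟩ := hu.exists_delta
  have h0 : 0 ≤ ip u u := by unfold ip; nlinarith [sq_nonneg u.re, sq_nonneg u.im]
  have h3 : 1 < dist V (z + (δ / 2 : ℝ) * u) := by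
    have h4 := sq_line z u V (δ / 2)
    rw [dist_comm z V, hV] at h4
    have h5 := dist_nonneg (x := z + (δ / 2 : ℝ) * u) (y := V)
    rw [dist_comm]
    nlinarith [mul_pos hδ (neg_pos.2 hs), mul_nonneg (sq_nonneg (δ / 2)) h0]
  have e1 : ∀ᶠ x in 𝓝 V, 1 < dist x (z + (δ / 2 : ℝ) * u) :=
    (continuous_id.dist continuous_const).continuousAt.eventually (Ioi_mem_nhds h3)
  filter_upwards [e1] with x hx hxz
  exact h.ray_cross (r := δ / 2) (by linarith) (fun s h1 h2 => hd s h1 (by linarith))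
    (Or.inr ⟨hxz, hx⟩)

/-- two opposite rays cannot be in the same `U i` if `i` has a partner off the orthogonal line -/
theorem Mx.not_both_rays (h : Mx U) {i : Fin k} {z u y : ℂ} (h1 : Ray (U i) z u)
    (h2 : Ray (U i) z (-u)) (hy : dist z y = 1) (hi : i ∈ Pal U y) (hip : ip u (y - z) ≠ 0) :
    False := by
  obtain ⟨δ, hδ, hd⟩ := h1.exists_delta
  obtain ⟨δ', hδ', hd'⟩ := h2.exists_delta
  obtain ⟨g, ⟨hgU, r, hr, hrg⟩, hgz⟩ := exists_off (h.isOpen i) (z := z) hi
    (line_crossing hy hip (lt_min hδ hδ'))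
  have hr0 : r ≠ 0 := by
    rintro rfl
    rw [Complex.ofReal_zero, zero_mul, add_zero, dist_comm] at hrg
    exact hgz hrg
  have hmem : z + r * u ∈ U i := by
    rcases lt_or_gt_of_ne hr0 with h3 | h3
    · have := hd' (-r) (by linarith) (by
        have := lt_of_lt_of_le hr (min_le_right _ _)
        rw [abs_of_neg h3] at this; exact this)
      have h4 : z + ((-r : ℝ) : ℂ) * -u = z + r * u := by push_cast; ring
      rwa [h4] at this
    · exact hd r h3 (by
        have := lt_of_lt_of_le hr (min_le_left _ _)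
        rwa [abs_of_pos h3] at this)
  exact h.free i _ hmem g (subset_closure hgU) hrg

/-- `S(z)` near the point `p` has constant palette `P` -/
def Arc (T : ℂ → Set (Fin k)) (z p : ℂ) (P : Set (Fin k)) : Prop :=
  dist p z = 1 ∧ ∀ᶠ q in 𝓝[sphere z 1] p, T q = P

theorem Arc.exists_eta {z : ℂ} {t0 : ℝ} {P : Set (Fin k)} (h : Arc T z (z + cis t0) P) :
    ∃ η > 0, ∀ t : ℝ, |t - t0| < η → T (z + cis t) = P := by
  obtain ⟨v, hv, hvs⟩ := mem_nhdsWithin_iff_exists_mem_nhds_inter.1 h.2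
  have hc2 : ContinuousAt (fun t => z + cis t) t0 :=
    (continuous_const.add continuous_cis).continuousAt
  obtain ⟨η, hη, hball⟩ := Metric.mem_nhds_iff.1 (hc2.preimage_mem_nhds hv)
  exact ⟨η, hη, fun t ht => hvs ⟨hball (by rw [mem_ball, Real.dist_eq]; exact ht),
    dist_add_cis z t⟩⟩

theorem Arc.mem {z p : ℂ} {P : Set (Fin k)} (h : Arc T z p P) : T p = P :=
  h.2.self_of_nhdsWithin (show p ∈ sphere z 1 from h.1)

/-- an arc has other points off a given line through the centre -/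
theorem Arc.exists_off_line {z p y : ℂ} {P : Set (Fin k)} (h : Arc T z p P) :
    ∃ q, Arc T z q P ∧ q ≠ y ∧ q + y ≠ 2 * z := by
  obtain ⟨q, -, hqz, hqy, hqy2, hJq⟩ := exists_generic (y := y) h.1 h.2
  exact ⟨q, ⟨hqz, hJq⟩, hqy, hqy2⟩

/-- the two rays orthogonal to a direction of an arc with palette `P` have no colour of `P` -/
theorem Mx.ray_avoid (h : Mx U) {z : ℂ} {t0 η : ℝ} (hη : 0 < η) {i : Fin k}
    (hJ : ∀ t : ℝ, |t - t0| < η → i ∈ Pal U (z + cis t)) {σ : ℝ} (hσ : σ = 1 ∨ σ = -1) :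
    ∀ᶠ r : ℝ in 𝓝[>] 0, i ∉ Pal U (z + r * (σ * (Complex.I * cis t0))) := by
  set s := min (η / 2) 1 with hs
  have hs0 : 0 < s := by positivity
  have hs1 : s ≤ 1 := min_le_right _ _
  have hsη : s < η := lt_of_le_of_lt (min_le_left _ _) (by linarith)
  have hsin : 0 < Real.sin s := Real.sin_pos_of_pos_of_lt_pi hs0 (by linarith [Real.pi_gt_three])
  have hr : ∀ᶠ r : ℝ in 𝓝[>] 0, 0 < r ∧ r < 2 * Real.sin s := by
    filter_upwards [self_mem_nhdsWithin,
      mem_nhdsWithin_of_mem_nhds (Iio_mem_nhds (show (0 : ℝ) < 2 * Real.sin s by linarith))]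
      with r h1 h2
    exact ⟨h1, h2⟩
  filter_upwards [hr] with r hr
  have key : ∀ t : ℝ, dist (z + cis t) (z + r * (σ * (Complex.I * cis t0))) ^ 2 =
      1 - 2 * r * σ * Real.sin (t - t0) + r ^ 2 := by
    intro t
    have hσ2 : σ ^ 2 = 1 := by rcases hσ with rfl | rfl <;> norm_num
    rw [sq_dist]
    simp only [Complex.add_re, Complex.add_im, Complex.mul_re, Complex.mul_im, Complex.ofReal_re,
      Complex.ofReal_im, Complex.I_re, Complex.I_im, cis_re, cis_im]
    rw [Real.sin_sub]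
    have h1 := Real.sin_sq_add_cos_sq t
    have h2 := Real.sin_sq_add_cos_sq t0
    linear_combination h1 + r ^ 2 * σ ^ 2 * h2 + r ^ 2 * hσ2
  have hd := dist_nonneg (x := z + cis (t0 + σ * s)) (y := z + r * (σ * (Complex.I * cis t0)))
  have hd' := dist_nonneg (x := z + cis t0) (y := z + r * (σ * (Complex.I * cis t0)))
  refine h.swept (z := z) (t1 := t0 + σ * s) (t2 := t0) ?_ ?_ ?_
  · intro t ht
    refine hJ t ?_
    rw [abs_lt]
    rcases hσ with rfl | rfl
    · rw [uIcc_of_ge (by linarith)] at ht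
      exact ⟨by linarith [ht.1], by linarith [ht.2]⟩
    · rw [uIcc_of_le (by linarith)] at ht
      exact ⟨by linarith [ht.1], by linarith [ht.2]⟩
  · have := key (t0 + σ * s)
    have h3 : σ * Real.sin (t0 + σ * s - t0) = Real.sin s := by
      rcases hσ with rfl | rfl
      · rw [show t0 + 1 * s - t0 = s by ring]; ring
      · rw [show t0 + -1 * s - t0 = -s by ring, Real.sin_neg]; ring
    have h4 : 2 * r * σ * Real.sin (t0 + σ * s - t0) = 2 * r * Real.sin s := by
      rw [mul_assoc (2 * r), h3]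
    rw [h4] at this
    nlinarith [hr.1, hr.2]
  · have := key t0
    rw [sub_self, Real.sin_zero, mul_zero, sub_zero] at this
    nlinarith [hr.1, mul_pos hr.1 hr.1]

/-- a ray which avoids all colours but `a, b` and has no point with palette `{a, b}` is solid -/
theorem Irr.ray_solid (h : Irr U T) {z u : ℂ} {a b : Fin k}
    (h1 : ∀ᶠ r : ℝ in 𝓝[>] 0, T (z + r * u) ⊆ {a, b} ∧ T (z + r * u) ≠ {a, b}) :
    Ray (U a) z u ∨ Ray (U b) z u := by
  obtain ⟨δ, hδ, hd⟩ := mem_nhdsGT_iff_exists_Ioo_subset.1 h1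
  have hcont : Continuous fun r : ℝ => z + r * u := by fun_prop
  have hcl : ∀ i, IsClosed {r : ℝ | i ∈ T (z + r * u)} := fun i => (h.closed i).preimage hcont
  have hpre : IsPreconnected (Ioo (0 : ℝ) δ) := isPreconnected_Ioo
  have hsub : Ioo (0 : ℝ) δ ⊆ {r : ℝ | a ∈ T (z + r * u)} ∪ {r : ℝ | b ∈ T (z + r * u)} := by
    intro r hr
    obtain ⟨i, hi⟩ := h.ne (z + r * u)
    rcases (hd hr).1 hi with rfl | hib
    · exact Or.inl hi
    · rw [mem_singleton_iff] at hib
      subst hib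
      exact Or.inr hi
  have hdis : ∀ r ∈ Ioo (0 : ℝ) δ, a ∈ T (z + r * u) → b ∈ T (z + r * u) → False := by
    intro r hr ha hb
    refine (hd hr).2 (Subset.antisymm (hd hr).1 ?_)
    rintro i (rfl | hi)
    · exact ha
    · rw [mem_singleton_iff] at hi; subst hi; exact hb
  by_cases hA : ∃ r ∈ Ioo (0 : ℝ) δ, a ∈ T (z + r * u)
  · left
    have hno : ∀ r ∈ Ioo (0 : ℝ) δ, b ∉ T (z + r * u) := by
      by_contra hcon
      push Not at hcon
      obtain ⟨r', hr', hb⟩ := hcon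
      obtain ⟨r, hr, ha⟩ := hA
      obtain ⟨s, hs, hsa, hsb⟩ := isPreconnected_closed_iff.1 hpre _ _ (hcl a) (hcl b) hsub
        ⟨r, hr, ha⟩ ⟨r', hr', hb⟩
      exact hdis s hs hsa hsb
    refine mem_nhdsGT_iff_exists_Ioo_subset.2 ⟨δ, hδ, fun r hr => ?_⟩
    refine h.mem_of_single fun i hi => ?_
    rcases (hd hr).1 hi with rfl | hib
    · rfl
    · rw [mem_singleton_iff] at hib
      subst hib
      exact absurd hi (hno r hr)
  · right
    push Not at hA
    refine mem_nhdsGT_iff_exists_Ioo_subset.2 ⟨δ, hδ, fun r hr => ?_⟩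
    refine h.mem_of_single fun i hi => ?_
    rcases (hd hr).1 hi with rfl | hib
    · exact absurd hi (hA r hr)
    · exact hib

/-- the centre data: four colours, an exact `ab`-arc and an exact `cd`-arc -/
structure DPt (T : ℂ → Set (Fin k)) (z : ℂ) (a b c d : Fin k) : Prop where
  pal : T z = {a, b, c, d}
  ac : a ≠ c
  ad : a ≠ d
  bc : b ≠ c
  bd : b ≠ d
  ab : a ≠ b
  cd : c ≠ d
  arc1 : ∃ p, Arc T z p {a, b}
  arc2 : ∃ p, Arc T z p {c, d}

theorem DPt.swap {z : ℂ} {a b c d : Fin k} (h : DPt T z a b c d) : DPt T z c d a b where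
  pal := by rw [h.pal]; ext i; simp only [mem_insert_iff, mem_singleton_iff]; tauto
  ac := h.ac.symm
  ad := h.bc.symm
  bc := h.ad.symm
  bd := h.bd.symm
  ab := h.cd
  cd := h.ab
  arc1 := h.arc2
  arc2 := h.arc1

theorem DPt.swap12 {z : ℂ} {a b c d : Fin k} (h : DPt T z a b c d) : DPt T z b a c d where
  pal := by rw [h.pal]; ext i; simp only [mem_insert_iff, mem_singleton_iff]; tauto
  ac := h.bc
  ad := h.bd
  bc := h.ac
  bd := h.ad
  ab := h.ab.symm
  cd := h.cd
  arc1 := by obtain ⟨p, hp⟩ := h.arc1; exact ⟨p, by rwa [pair_comm]⟩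
  arc2 := h.arc2

theorem DPt.swap34 {z : ℂ} {a b c d : Fin k} (h : DPt T z a b c d) : DPt T z a b d c :=
  h.swap.swap12.swap

/-- **D0, one ray** -/
theorem Irr.d0_one (h : Irr U T) {z g u : ℂ} {a b c d : Fin k} (hz : DPt T z a b c d)
    (hg : Arc T z g {c, d}) {σ : ℝ} (hσ : σ = 1 ∨ σ = -1) (hu : u = σ * (Complex.I * (g - z))) :
    Ray (U a) z u ∨ Ray (U b) z u := by
  obtain ⟨t0, ht0⟩ := exists_cis (u := g - z) (by rw [← dist_eq_norm]; exact hg.1)
  have hgt : g = z + cis t0 := by rw [← ht0]; ring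
  rw [hgt] at hg
  obtain ⟨η, hη, hJ⟩ := hg.exists_eta
  rw [ht0] at hu
  obtain ⟨p, hp⟩ := hz.arc1
  have hpT : T p = {a, b} := hp.mem
  have hnl := h.no_layer (z := z) (q := p) hp.1
  have hcont : Tendsto (fun r : ℝ => z + r * u) (𝓝[>] 0) (𝓝 z) := by
    have : Continuous fun r : ℝ => z + r * u := by fun_prop
    have h2 := this.tendsto 0
    simp only [Complex.ofReal_zero, zero_mul, add_zero] at h2
    exact h2.mono_left nhdsWithin_le_nhds
  refine h.ray_solid ?_
  have hc := h.mx.ray_avoid hη (i := c) (fun t ht => h.sub _ (by rw [hJ t ht]; simp)) hσ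
  have hd := h.mx.ray_avoid hη (i := d) (fun t ht => h.sub _ (by rw [hJ t ht]; simp)) hσ
  filter_upwards [hc, hd, hcont.eventually (h.nhd z), hcont.eventually hnl] with r h1 h2 h3 h4
  rw [← hu] at h1 h2
  have h5 : T (z + r * u) ⊆ {a, b} := by
    intro i hi
    have := h3 hi
    rw [hz.pal] at this
    rcases this with rfl | rfl | rfl | hid
    · simp
    · simp
    · exact absurd (h.sub _ hi) h1
    · rw [mem_singleton_iff] at hid
      subst hid
      exact absurd (h.sub _ hi) h2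
  refine ⟨h5, fun h6 => ?_⟩
  have h7 := h4 (by rw [hpT, h6])
  rw [h6, Set.ncard_pair hz.ab] at h7
  omega

/-- **D0**: the two rays orthogonal to a direction of a `cd`-arc -/
theorem Irr.d0 (h : Irr U T) {z g : ℂ} {a b c d : Fin k} (hz : DPt T z a b c d)
    (hg : Arc T z g {c, d}) :
    (Ray (U a) z (Complex.I * (g - z)) ∧ Ray (U b) z (-(Complex.I * (g - z)))) ∨
      (Ray (U b) z (Complex.I * (g - z)) ∧ Ray (U a) z (-(Complex.I * (g - z)))) := by
  have h1 := h.d0_one hz hg (σ := 1) (Or.inl rfl) rfl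
  have h2 := h.d0_one hz hg (σ := -1) (Or.inr rfl) rfl
  rw [Complex.ofReal_one, one_mul] at h1
  have e : ((-1 : ℝ) : ℂ) * (Complex.I * (g - z)) = -(Complex.I * (g - z)) := by push_cast; ring
  rw [e] at h2
  obtain ⟨p, hp⟩ := hz.arc1
  obtain ⟨y, hy, hyg, hyg2⟩ := hp.exists_off_line (y := g)
  have hyT : T y = {a, b} := hy.mem
  have hip : ip (Complex.I * (g - z)) (y - z) ≠ 0 := by
    intro h0
    have h3 : cr (g - z) (y - z) = 0 := by
      unfold ip at h0
      unfold cr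
      simp at h0
      simp
      linarith
    rcases cr_zero (by rw [← dist_eq_norm]; exact hg.1) (by rw [← dist_eq_norm]; exact hy.1) h3
      with h4 | h4
    · exact hyg (by linear_combination -h4)
    · exact hyg2 (by linear_combination h4)
  have hzy : dist z y = 1 := by rw [dist_comm]; exact hy.1
  have hno : ∀ i ∈ ({a, b} : Set (Fin k)), Ray (U i) z (Complex.I * (g - z)) →
      Ray (U i) z (-(Complex.I * (g - z))) → False := fun i hi r1 r2 =>
    h.mx.not_both_rays r1 r2 hzy (h.sub y (by rw [hyT]; exact hi)) hip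
  rcases h1 with h1 | h1 <;> rcases h2 with h2 | h2
  · exact (hno a (by simp) h1 h2).elim
  · exact Or.inl ⟨h1, h2⟩
  · exact Or.inr ⟨h1, h2⟩
  · exact (hno b (by simp) h1 h2).elim

end Vale.Agent.P032.Six
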