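import Vale.Agent.P032.S5.H80.Rh

/-!
# P032: the two centres of a rhombus, exact arcs, clean ends

`NCfg`: a `Cfg` with `T w = {e, a, f, c}` for `w = V + Q - z`.
-/

open Set Filter Topology Metric

noncomputable section

namespace Vale.Agent.P032.Six

/-- normal form: the common colours of `z` and `w` are `a` and `c` -/
structure NCfg (T : ℂ → Set (Fin 6)) (z V Q : ℂ) (a b c d e f : Fin 6) : Prop
    extends Cfg T z V Q a b c d e f where
  TW : T (V + Q - z) = {e, a, f, c}

variable {U : Fin 6 → Set ℂ} {T : ℂ → Set (Fin 6)} {z V Q : ℂ} {a b c d e f : Fin 6}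

/-- every `Cfg` with `|T w| ≤ 4` has a normal form -/
theorem Cfg.normal (C : Cfg T z V Q a b c d e f) (h : Irr U T)
    (h4 : (T (V + Q - z)).ncard ≤ 4) :
    NCfg T z V Q a b c d e f ∨ NCfg T z V Q b a c d e f ∨ NCfg T z V Q a b d c e f ∨
      NCfg T z V Q b a d c e f := by
  have key : ∀ {a b c d : Fin 6} (C : Cfg T z V Q a b c d e f), a ∈ T (V + Q - z) →
      c ∈ T (V + Q - z) → NCfg T z V Q a b c d e f := by
    intro a b c d C ha hc
    refine ⟨C, ?_⟩
    have h1 : ({e, a, f, c} : Set (Fin 6)) ⊆ T (V + Q - z) := by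
      rintro i (rfl | rfl | rfl | hi)
      · exact C.e_mem h
      · exact ha
      · exact C.f_mem h
      · rw [mem_singleton_iff] at hi; subst hi; exact hc
    have h2 : ({e, a, f, c} : Set (Fin 6)).ncard = 4 := by
      rw [Set.ncard_insert_of_notMem, Set.ncard_insert_of_notMem, Set.ncard_pair C.fc]
      · simp [C.fa.symm, C.dp.ac]
      · simp [C.ea, C.ef, C.ec]
    exact (Set.eq_of_subset_of_ncard_le h1 (by rw [h2]; exact h4) (Set.toFinite _)).symm
  obtain ⟨x, hx1, hx2, hx3⟩ := C.two_V h e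
  obtain ⟨y, hy1, hy2, hy3⟩ := C.swap.two_V h f
  rw [add_comm Q V] at hy1
  rw [C.TV] at hx2
  rw [C.TQ] at hy2
  rcases hx2 with rfl | rfl | hx2
  · rcases hy2 with rfl | rfl | hy2
    · exact Or.inl (key C hx1 hy1)
    · exact Or.inr (Or.inr (Or.inl (key C.swap34 hx1 hy1)))
    · exact absurd hy2 hy3
  · rcases hy2 with rfl | rfl | hy2
    · exact Or.inr (Or.inl (key C.swap12 hx1 hy1))
    · exact Or.inr (Or.inr (Or.inr (key C.swap12.swap34 hx1 hy1)))
    · exact absurd hy2 hy3
  · exact absurd hx2 hx3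

namespace NCfg

theorem swap (C : NCfg T z V Q a b c d e f) : NCfg T z Q V c d a b f e where
  toCfg := C.toCfg.swap
  TW := by
    rw [add_comm Q V, C.TW]; ext i; simp only [mem_insert_iff, mem_singleton_iff]; tauto

theorem Vw (C : NCfg T z V Q a b c d e f) : dist V (V + Q - z) = 1 := by
  rw [dist_comm]; exact C.wV

theorem Qw (C : NCfg T z V Q a b c d e f) : dist Q (V + Q - z) = 1 := by
  rw [dist_comm]; exact C.wQ

theorem crV (C : NCfg T z V Q a b c d e f) (h : Irr U T) :
    cr (V - z) (V - (V + Q - z)) ≠ 0 := by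
  have h1 := cr_ne_of C.hV C.hQ C.VQ (C.anti h)
  have e1 : cr (V - z) (V - (V + Q - z)) = -cr (V - z) (Q - z) := by
    unfold cr; simp; ring
  rw [e1]
  exact neg_ne_zero.2 h1

/-- the arc of `S(w)` at `V`, inner case -/
theorem inW (C : NCfg T z V Q a b c d e f) (h : Irr U T) (hs : Sd U z V a b) :
    ∀ᶠ x in 𝓝 V, dist x (V + Q - z) = 1 → dist x z < 1 → T x = {e, a} := by
  filter_upwards [hs, h.nhd V] with x h1 h2 h3 h4
  have haU : x ∉ U a := h.mx.notMem (h.sub _ (by rw [C.TW]; simp)) h3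
  have heU : x ∉ U e := h.mx.notMem (h.sub _ (by rw [C.TW]; simp)) h3
  have h5 : T x ⊆ {e, a} := by
    intro i hi
    have := h2 hi
    rw [C.TV] at this
    rcases this with rfl | rfl | h6
    · simp
    · exact absurd (h.sub _ hi) (h1.2 h4)
    · rw [mem_singleton_iff] at h6; subst h6; simp
  have ha : a ∈ T x := by
    by_contra ha
    refine heU (h.mem_of_single fun i hi => ?_)
    rcases h5 hi with rfl | h7
    · rfl
    · rw [mem_singleton_iff] at h7; subst h7; exact absurd hi ha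
  have he : e ∈ T x := by
    by_contra he
    refine haU (h.mem_of_single fun i hi => ?_)
    rcases h5 hi with rfl | h7
    · exact absurd hi he
    · exact h7
  refine Subset.antisymm h5 ?_
  rintro i (rfl | hi)
  · exact he
  · rw [mem_singleton_iff] at hi; subst hi; exact ha

/-- the arc of `S(w)` at `V`, outer case -/
theorem outW (C : NCfg T z V Q a b c d e f) (h : Irr U T) (hs : Sd U z V b a) :
    ∀ᶠ x in 𝓝 V, dist x (V + Q - z) = 1 → 1 < dist x z → T x = {e, a} := by
  filter_upwards [hs, h.nhd V] with x h1 h2 h3 h4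
  have haU : x ∉ U a := h.mx.notMem (h.sub _ (by rw [C.TW]; simp)) h3
  have heU : x ∉ U e := h.mx.notMem (h.sub _ (by rw [C.TW]; simp)) h3
  have h5 : T x ⊆ {e, a} := by
    intro i hi
    have := h2 hi
    rw [C.TV] at this
    rcases this with rfl | rfl | h6
    · simp
    · exact absurd (h.sub _ hi) (h1.1 h4)
    · rw [mem_singleton_iff] at h6; subst h6; simp
  have ha : a ∈ T x := by
    by_contra ha
    refine heU (h.mem_of_single fun i hi => ?_)
    rcases h5 hi with rfl | h7
    · rfl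
    · rw [mem_singleton_iff] at h7; subst h7; exact absurd hi ha
  have he : e ∈ T x := by
    by_contra he
    refine haU (h.mem_of_single fun i hi => ?_)
    rcases h5 hi with rfl | h7
    · exact absurd hi he
    · exact h7
  refine Subset.antisymm h5 ?_
  rintro i (rfl | hi)
  · exact he
  · rw [mem_singleton_iff] at hi; subst hi; exact ha

/-- exact `ea`-arc of `S(w)` -/
theorem arcW (C : NCfg T z V Q a b c d e f) (h : Irr U T) :
    ∃ p, Arc T (V + Q - z) p {e, a} := by
  set w := V + Q - z with hw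
  have hcr : cr (V - w) (V - z) ≠ 0 := by
    have h0 := C.crV h
    rw [← hw] at h0
    intro h1
    apply h0
    unfold cr at h1 ⊢
    linarith
  have hVw : dist V w = 1 := C.Vw
  have main : ∀ τ : ℝ, (∀ᶠ t : ℝ in 𝓝[>] 0,
      (∀ᶠ x in 𝓝 (w + (V - w) * cis (τ * t)), dist x w = 1 → T x = {e, a})) →
      ∃ p, Arc T w p {e, a} := by
    intro τ h1
    obtain ⟨t, ht⟩ := h1.exists
    refine ⟨w + (V - w) * cis (τ * t), dist_arc hVw _, ?_⟩
    filter_upwards [mem_nhdsWithin_of_mem_nhds ht, self_mem_nhdsWithin] with x h2 h3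
    exact h2 h3
  rcases h.sides C.dp C.hV with hs | hs
  · have h1 := (C.inW h hs).eventually_nhds
    rw [← hw] at h1
    obtain ⟨τ, hτ⟩ : ∃ τ : ℝ, τ * cr (V - w) (V - z) < 0 := by
      rcases lt_or_gt_of_ne hcr with h2 | h2
      · exact ⟨1, by linarith⟩
      · exact ⟨-1, by linarith⟩
    refine main τ ?_
    filter_upwards [arc_in C.hV hτ, (tendsto_arc w V τ).eventually h1] with t h2 h3
    have h4 : ∀ᶠ x in 𝓝 (w + (V - w) * cis (τ * t)), dist x z < 1 :=
      (continuous_id.dist continuous_const).continuousAt.eventually (Iio_mem_nhds h2)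
    filter_upwards [h3, h4] with x h5 h6 h7
    exact h5 h7 h6
  · have h1 := (C.outW h hs).eventually_nhds
    rw [← hw] at h1
    obtain ⟨τ, hτ⟩ : ∃ τ : ℝ, 0 < τ * cr (V - w) (V - z) := by
      rcases lt_or_gt_of_ne hcr with h2 | h2
      · exact ⟨-1, by linarith⟩
      · exact ⟨1, by linarith⟩
    refine main τ ?_
    filter_upwards [arc_out C.hV hτ, (tendsto_arc w V τ).eventually h1] with t h2 h3
    have h4 : ∀ᶠ x in 𝓝 (w + (V - w) * cis (τ * t)), 1 < dist x z :=
      (continuous_id.dist continuous_const).continuousAt.eventually (Ioi_mem_nhds h2)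
    filter_upwards [h3, h4] with x h5 h6 h7
    exact h5 h7 h6

/-- **`w` is a two-pair centre** -/
theorem dpW (C : NCfg T z V Q a b c d e f) (h : Irr U T) : DPt T (V + Q - z) e a f c where
  pal := C.TW
  ac := C.ef
  ad := C.ec
  bc := C.fa.symm
  bd := C.dp.ac
  ab := C.ea
  cd := C.fc
  arc1 := C.arcW h
  arc2 := by
    have := C.swap.arcW h
    rwa [add_comm Q V] at this

/-- the configuration seen from `w` -/
theorem conj (C : NCfg T z V Q a b c d e f) (h : Irr U T) :
    NCfg T (V + Q - z) V Q a e c f b d where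
  dp := (C.dpW h).swap12.swap34
  hV := C.Vw
  hQ := C.Qw
  TV := by rw [C.TV]; ext i; simp only [mem_insert_iff, mem_singleton_iff]; tauto
  TQ := by rw [C.TQ]; ext i; simp only [mem_insert_iff, mem_singleton_iff]; tauto
  he := by
    rw [C.TW]
    simp only [mem_insert_iff, mem_singleton_iff, not_or]
    exact ⟨C.eb.symm, C.dp.ab.symm, C.fb.symm, C.dp.bc⟩
  hf := by
    rw [C.TW]
    simp only [mem_insert_iff, mem_singleton_iff, not_or]
    exact ⟨C.ed.symm, C.dp.ad.symm, C.fd.symm, C.dp.cd.symm⟩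
  ef := C.dp.bd
  TW := by
    rw [show V + Q - (V + Q - z) = z by ring, C.dp.pal]
    ext i; simp only [mem_insert_iff, mem_singleton_iff]; tauto

/-- sides of `S(w)` at `V` -/
theorem sidesW (C : NCfg T z V Q a b c d e f) (h : Irr U T) :
    Sd U (V + Q - z) V a e ∨ Sd U (V + Q - z) V e a := h.sides (C.conj h).dp C.Vw

/-- clean end of `S(z)` at `V`, first case: `a` inside `D(w)` -/
theorem clean_in (C : NCfg T z V Q a b c d e f) (h : Irr U T) (hs : Sd U (V + Q - z) V a e) :
    ∀ᶠ x in 𝓝 V, dist x z = 1 →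
      (dist x (V + Q - z) < 1 → T x = {a, b}) ∧
      (1 < dist x (V + Q - z) → e ∈ T x ∧ a ∉ Pal U x) := by
  have h0 : NCfg T (V + Q - z) V Q a e c f b d := C.conj h
  have h1 := h0.inW h hs
  rw [show V + Q - (V + Q - z) = z by ring] at h1
  filter_upwards [h1, hs, h.nhd V] with x h2 h3 h4 h5
  refine ⟨fun h6 => ?_, fun h6 => ⟨?_, h3.1 h6⟩⟩
  · rw [h2 h5 h6, pair_comm]
  · by_contra he
    have hbU : x ∉ U b := h.mx.notMem (h.sub _ (by rw [C.dp.pal]; simp)) h5
    refine hbU (h.mem_of_single fun i hi => ?_)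
    have := h4 hi
    rw [C.TV] at this
    rcases this with rfl | rfl | h7
    · exact absurd (h.sub _ hi) (h3.1 h6)
    · rfl
    · rw [mem_singleton_iff] at h7; subst h7; exact absurd hi he

/-- clean end of `S(z)` at `V`, second case: `a` outside `D(w)` -/
theorem clean_out (C : NCfg T z V Q a b c d e f) (h : Irr U T) (hs : Sd U (V + Q - z) V e a) :
    ∀ᶠ x in 𝓝 V, dist x z = 1 →
      (1 < dist x (V + Q - z) → T x = {a, b}) ∧
      (dist x (V + Q - z) < 1 → e ∈ T x ∧ a ∉ Pal U x) := by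
  have h0 : NCfg T (V + Q - z) V Q a e c f b d := C.conj h
  have h1 := h0.outW h hs
  rw [show V + Q - (V + Q - z) = z by ring] at h1
  filter_upwards [h1, hs, h.nhd V] with x h2 h3 h4 h5
  refine ⟨fun h6 => ?_, fun h6 => ⟨?_, h3.2 h6⟩⟩
  · rw [h2 h5 h6, pair_comm]
  · by_contra he
    have hbU : x ∉ U b := h.mx.notMem (h.sub _ (by rw [C.dp.pal]; simp)) h5
    refine hbU (h.mem_of_single fun i hi => ?_)
    have := h4 hi
    rw [C.TV] at this
    rcases this with rfl | rfl | h7
    · exact absurd (h.sub _ hi) (h3.2 h6)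
    · rfl
    · rw [mem_singleton_iff] at h7; subst h7; exact absurd hi he

end NCfg

/-- **clean end**: for small `t > 0` the points `z + (v - z) cis (-o t)` have palette `P`, the points
`z + (v - z) cis (o t)` have the colour `l` and not all colours of `P` -/
structure CEnd (T : ℂ → Set (Fin 6)) (z v : ℂ) (P : Set (Fin 6)) (l : Fin 6) (o : ℝ) : Prop where
  o1 : o = 1 ∨ o = -1
  arc : ∀ᶠ t : ℝ in 𝓝[>] 0, T (z + (v - z) * cis (-o * t)) = P
  after : ∀ᶠ t : ℝ in 𝓝[>] 0, l ∈ T (z + (v - z) * cis (o * t)) ∧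
    ¬ P ⊆ T (z + (v - z) * cis (o * t))

/-- **(LP1)** and cleanness at `V` on `S(z)` -/
theorem NCfg.lp1 (C : NCfg T z V Q a b c d e f) (h : Irr U T) :
    ∃ o, CEnd T z V {a, b} e o ∧
      (Sd U (V + Q - z) V a e ∧ 0 < o * cr (z - V) (V + Q - z - V) ∨
        Sd U (V + Q - z) V e a ∧ o * cr (z - V) (V + Q - z - V) < 0) := by
  have hcr := C.crV h
  have e0 : cr (z - V) (V + Q - z - V) = cr (V - z) (V - (V + Q - z)) := by
    unfold cr; simp; ring
  rw [e0]
  rcases C.sidesW h with hs | hs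
  · have h1 := C.clean_in h hs
    obtain ⟨o, ho, hos⟩ : ∃ o : ℝ, (o = 1 ∨ o = -1) ∧ 0 < o * cr (V - z) (V - (V + Q - z)) := by
      rcases lt_or_gt_of_ne hcr with h2 | h2
      · exact ⟨-1, Or.inr rfl, by linarith⟩
      · exact ⟨1, Or.inl rfl, by linarith⟩
    refine ⟨o, ⟨ho, ?_, ?_⟩, Or.inl ⟨hs, hos⟩⟩
    · filter_upwards [arc_in (C := z) (τ := -o) C.Vw (by linarith),
        (tendsto_arc z V (-o)).eventually h1] with t h2 h3
      exact (h3 (dist_arc C.hV _)).1 h2
    · filter_upwards [arc_out (C := z) (τ := o) C.Vw hos,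
        (tendsto_arc z V o).eventually h1] with t h2 h3
      have h4 := (h3 (dist_arc C.hV _)).2 h2
      exact ⟨h4.1, fun h5 => h4.2 (h.sub _ (h5 (by simp)))⟩
  · have h1 := C.clean_out h hs
    obtain ⟨o, ho, hos⟩ : ∃ o : ℝ, (o = 1 ∨ o = -1) ∧ o * cr (V - z) (V - (V + Q - z)) < 0 := by
      rcases lt_or_gt_of_ne hcr with h2 | h2
      · exact ⟨1, Or.inl rfl, by linarith⟩
      · exact ⟨-1, Or.inr rfl, by linarith⟩
    refine ⟨o, ⟨ho, ?_, ?_⟩, Or.inr ⟨hs, hos⟩⟩
    · filter_upwards [arc_out (C := z) (τ := -o) C.Vw (by linarith),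
        (tendsto_arc z V (-o)).eventually h1] with t h2 h3
      exact (h3 (dist_arc C.hV _)).1 h2
    · filter_upwards [arc_in (C := z) (τ := o) C.Vw hos,
        (tendsto_arc z V o).eventually h1] with t h2 h3
      have h4 := (h3 (dist_arc C.hV _)).2 h2
      exact ⟨h4.1, fun h5 => h4.2 (h.sub _ (h5 (by simp)))⟩

/-- uniqueness of the orientation -/
theorem CEnd.unique {P : Set (Fin 6)} {l l' : Fin 6} {o o' : ℝ} {v : ℂ} (h1 : CEnd T z v P l o)
    (h2 : CEnd T z v P l' o') : o = o' := by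
  by_contra hne
  have h3 : o' = -o := by
    rcases h1.o1 with h4 | h4 <;> rcases h2.o1 with h5 | h5
    · exact absurd (h4.trans h5.symm) hne
    · rw [h4, h5]
    · rw [h4, h5]; norm_num
    · exact absurd (h4.trans h5.symm) hne
  subst h3
  obtain ⟨t, h4, h5⟩ := (h1.arc.and h2.after).exists
  exact h5.2 (by rw [h4])

end Vale.Agent.P032.Six
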