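import Vale.Agent.P032.S5.H80.Anti

/-!
# P032: the rhombus at a two-pair centre; ends are clean

`z` with `T z = {a, b, c, d}`, `V, Q ∈ S(z)` with `T V = {a, b, e}`, `T Q = {c, d, f}`,
`w = V + Q - z`.
-/

open Set Filter Topology Metric

noncomputable section

namespace Vale.Agent.P032.Six

variable {k : ℕ} {U : Fin k → Set ℂ} {T : ℂ → Set (Fin k)}

/-- the derivative of the squared distance along a unit circle, general starting point -/
theorem arc_der (C P g : ℂ) (τ : ℝ) :
    HasDerivAt (fun t : ℝ => dist (C + (P - C) * cis (τ * t)) g ^ 2)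
      (2 * (τ * cr (P - C) (P - g))) 0 := by
  have hc0 : HasDerivAt (fun t : ℝ => cis (τ * t)) (Complex.I * cis (τ * 0) * (τ : ℂ)) 0 := by
    have h1 := hasDerivAt_cis (τ * 0)
    have h2 : HasDerivAt (fun t : ℝ => τ * t) τ 0 := by
      simpa using (hasDerivAt_id (0 : ℝ)).const_mul τ
    have h3 := h1.scomp (0 : ℝ) h2
    refine h3.congr_deriv ?_
    rw [Complex.real_smul]; ring
  have h0 : HasDerivAt (fun t : ℝ => C + (P - C) * cis (τ * t))
      ((P - C) * (Complex.I * cis (τ * 0) * (τ : ℂ))) 0 := (hc0.const_mul (P - C)).const_add _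
  have hre := Complex.reCLM.hasFDerivAt.comp_hasDerivAt (0 : ℝ) h0
  have him := Complex.imCLM.hasFDerivAt.comp_hasDerivAt (0 : ℝ) h0
  have h4 := ((hre.sub_const g.re).pow 2).add ((him.sub_const g.im).pow 2)
  have h5 : (fun t : ℝ => dist (C + (P - C) * cis (τ * t)) g ^ 2) =
      fun t : ℝ => ((C + (P - C) * cis (τ * t)).re - g.re) ^ 2 +
        ((C + (P - C) * cis (τ * t)).im - g.im) ^ 2 := by
    funext t; rw [sq_dist]
  rw [h5]
  refine h4.congr_deriv ?_
  have e : cis 0 = 1 := by simp [cis]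
  simp [e, cr]
  ring

theorem arc_in {C P g : ℂ} (hP : dist P g = 1) {τ : ℝ} (hs : τ * cr (P - C) (P - g) < 0) :
    ∀ᶠ t : ℝ in 𝓝[>] 0, dist (C + (P - C) * cis (τ * t)) g < 1 := by
  have hneg : 2 * (τ * cr (P - C) (P - g)) < 0 := by linarith
  have h6 := (hasDerivAt_iff_tendsto_slope.1 (arc_der C P g τ)).eventually (Iio_mem_nhds hneg)
  have h7 : ∀ᶠ t : ℝ in 𝓝[>] 0,
      slope (fun t : ℝ => dist (C + (P - C) * cis (τ * t)) g ^ 2) 0 t < 0 :=
    h6.filter_mono (nhdsWithin_mono _ fun t ht => ne_of_gt ht)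
  filter_upwards [h7, self_mem_nhdsWithin] with t h8 h9
  rw [mem_Ioi] at h9
  rw [slope_def_field, div_neg_iff] at h8
  have e : C + (P - C) * cis (τ * 0) = P := by simp [cis]
  simp only [e] at h8
  rw [hP] at h8
  have h10 := dist_nonneg (x := C + (P - C) * cis (τ * t)) (y := g)
  rcases h8 with ⟨h11, h12⟩ | ⟨h11, h12⟩
  · linarith
  · nlinarith

theorem arc_out {C P g : ℂ} (hP : dist P g = 1) {τ : ℝ} (hs : 0 < τ * cr (P - C) (P - g)) :
    ∀ᶠ t : ℝ in 𝓝[>] 0, 1 < dist (C + (P - C) * cis (τ * t)) g := by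
  have hneg : 0 < 2 * (τ * cr (P - C) (P - g)) := by linarith
  have h6 := (hasDerivAt_iff_tendsto_slope.1 (arc_der C P g τ)).eventually (Ioi_mem_nhds hneg)
  have h7 : ∀ᶠ t : ℝ in 𝓝[>] 0,
      0 < slope (fun t : ℝ => dist (C + (P - C) * cis (τ * t)) g ^ 2) 0 t :=
    h6.filter_mono (nhdsWithin_mono _ fun t ht => ne_of_gt ht)
  filter_upwards [h7, self_mem_nhdsWithin] with t h8 h9
  rw [mem_Ioi] at h9
  rw [slope_def_field, div_pos_iff] at h8
  have e : C + (P - C) * cis (τ * 0) = P := by simp [cis]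
  simp only [e] at h8
  rw [hP] at h8
  have h10 := dist_nonneg (x := C + (P - C) * cis (τ * t)) (y := g)
  rcases h8 with ⟨h11, h12⟩ | ⟨h11, h12⟩
  · nlinarith
  · linarith

theorem tendsto_arc (C P : ℂ) (τ : ℝ) :
    Tendsto (fun t : ℝ => C + (P - C) * cis (τ * t)) (𝓝[>] 0) (𝓝 P) := by
  have : Continuous fun t : ℝ => C + (P - C) * cis (τ * t) :=
    continuous_const.add (continuous_const.mul (continuous_cis.comp
      (continuous_const.mul continuous_id)))
  have h2 := this.tendsto 0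
  have e : C + (P - C) * cis (τ * 0) = P := by simp [cis]
  rw [e] at h2
  exact h2.mono_left nhdsWithin_le_nhds

theorem dist_arc {C P : ℂ} (hP : dist P C = 1) (s : ℝ) : dist (C + (P - C) * cis s) C = 1 := by
  rw [dist_eq_norm, add_sub_cancel_left, norm_mul, norm_cis, mul_one, ← dist_eq_norm]
  exact hP

theorem sq_pos_of_ne {z w : ℂ} (h : z ≠ w) : 0 < (w.re - z.re) ^ 2 + (w.im - z.im) ^ 2 := by
  rw [← sq_dist]
  exact pow_pos (dist_pos.2 h.symm) 2

/-- two unit circles: a third common point is one of the two -/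
theorem circle_two {z w V Q x : ℂ} (hV : dist V z = 1) (hQ : dist Q z = 1) (hx : dist x z = 1)
    (hVw : dist V w = 1) (hQw : dist Q w = 1) (hxw : dist x w = 1) (hzw : z ≠ w) (hVQ : V ≠ Q) :
    x = V ∨ x = Q := by
  have s1 := sq_dist V z
  have s2 := sq_dist Q z
  have s3 := sq_dist x z
  have s4 := sq_dist V w
  have s5 := sq_dist Q w
  have s6 := sq_dist x w
  rw [hV] at s1
  rw [hQ] at s2
  rw [hx] at s3
  rw [hVw] at s4
  rw [hQw] at s5
  rw [hxw] at s6
  -- `x - V` and `Q - V` are orthogonal to `w - z`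
  have o1 : (x.re - V.re) * (w.re - z.re) + (x.im - V.im) * (w.im - z.im) = 0 := by
    linear_combination (-1 / 2) * s3 + (1 / 2) * s6 + (1 / 2) * s1 - (1 / 2) * s4
  have o2 : (Q.re - V.re) * (w.re - z.re) + (Q.im - V.im) * (w.im - z.im) = 0 := by
    linear_combination (-1 / 2) * s2 + (1 / 2) * s5 + (1 / 2) * s1 - (1 / 2) * s4
  have hn := sq_pos_of_ne hzw
  have hm := sq_pos_of_ne hVQ
  have hc : (x.re - V.re) * (Q.im - V.im) - (x.im - V.im) * (Q.re - V.re) = 0 := by
    have e1 : ((x.re - V.re) * (Q.im - V.im) - (x.im - V.im) * (Q.re - V.re)) *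
        ((w.re - z.re) ^ 2 + (w.im - z.im) ^ 2) = 0 := by
      linear_combination ((Q.im - V.im) * (w.re - z.re) - (Q.re - V.re) * (w.im - z.im)) * o1 +
        ((x.im - V.im) * (-(w.re - z.re)) + (x.re - V.re) * (w.im - z.im)) * o2
    exact (mul_eq_zero.1 e1).resolve_right hn.ne'
  set m := (Q.re - V.re) ^ 2 + (Q.im - V.im) ^ 2 with hmd
  set μ := ((x.re - V.re) * (Q.re - V.re) + (x.im - V.im) * (Q.im - V.im)) / m with hμ
  have hμm : μ * m = (x.re - V.re) * (Q.re - V.re) + (x.im - V.im) * (Q.im - V.im) :=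
    div_mul_cancel₀ _ hm.ne'
  have e1 : x.re - V.re = μ * (Q.re - V.re) := by
    have : (x.re - V.re) * m = μ * (Q.re - V.re) * m := by
      rw [show μ * (Q.re - V.re) * m = (μ * m) * (Q.re - V.re) by ring, hμm, hmd]
      linear_combination (Q.im - V.im) * hc
    exact mul_right_cancel₀ hm.ne' this
  have e2 : x.im - V.im = μ * (Q.im - V.im) := by
    have : (x.im - V.im) * m = μ * (Q.im - V.im) * m := by
      rw [show μ * (Q.im - V.im) * m = (μ * m) * (Q.im - V.im) by ring, hμm, hmd]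
      linear_combination -(Q.re - V.re) * hc
    exact mul_right_cancel₀ hm.ne' this
  have hx1 : x.re = V.re + μ * (Q.re - V.re) := by linarith
  have hx2 : x.im = V.im + μ * (Q.im - V.im) := by linarith
  have h5 : μ * (μ - 1) * m = 0 := by
    rw [hx1, hx2] at s3
    rw [hmd]
    linear_combination -s3 + (1 - μ) * s1 + μ * s2
  rcases mul_eq_zero.1 h5 with h6 | h6
  · rcases mul_eq_zero.1 h6 with h7 | h7
    · left
      exact Complex.ext (by rw [hx1, h7]; ring) (by rw [hx2, h7]; ring)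
    · right
      have : μ = 1 := by linarith
      exact Complex.ext (by rw [hx1, this]; ring) (by rw [hx2, this]; ring)
  · exact absurd h6 hm.ne'

end Vale.Agent.P032.Six
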