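import Vale.Agent.P032.S5.H80.Ray

/-!
# P032: sides at a point of the circle about a two-pair centre; `A` and `C` are never antipodal
-/

open Set Filter Topology Metric

noncomputable section

namespace Vale.Agent.P032.Six

variable {k : ℕ} {U : Fin k → Set ℂ} {T : ℂ → Set (Fin k)}

/-- near `V` the colour `i` is absent outside `S(z)` and `j` is absent inside `S(z)` -/
def Sd (U : Fin k → Set ℂ) (z V : ℂ) (i j : Fin k) : Prop :=
  ∀ᶠ x in 𝓝 V, (1 < dist x z → i ∉ Pal U x) ∧ (dist x z < 1 → j ∉ Pal U x)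

theorem ip_I (a b : ℂ) : ip (Complex.I * a) b = cr a b := by
  unfold ip cr
  simp
  ring

theorem ip_neg (a b : ℂ) : ip (-a) b = -ip a b := by
  unfold ip
  simp
  ring

/-- sides from a direction of the `cd`-arc, first colour distribution -/
theorem Mx.sd_of_rays (h : Mx U) {z u V : ℂ} {a b : Fin k} (h1 : Ray (U a) z u)
    (h2 : Ray (U b) z (-u)) (hV : dist V z = 1) (hs : 0 < ip u (V - z)) : Sd U z V a b := by
  have e1 := h.far h1 hV hs
  have e2 := h.near h2 hV (by rw [ip_neg]; linarith)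
  filter_upwards [e1, e2] with x h3 h4
  exact ⟨h3, h4⟩

theorem Mx.sd_of_rays' (h : Mx U) {z u V : ℂ} {a b : Fin k} (h1 : Ray (U a) z u)
    (h2 : Ray (U b) z (-u)) (hV : dist V z = 1) (hs : ip u (V - z) < 0) : Sd U z V b a := by
  refine h.sd_of_rays (u := -u) h2 (by rwa [neg_neg]) hV (by rw [ip_neg]; linarith)

theorem cr_ne_of {z g V : ℂ} (hg : dist g z = 1) (hV : dist V z = 1) (h1 : g ≠ V)
    (h2 : g + V ≠ 2 * z) : cr (g - z) (V - z) ≠ 0 := by
  intro h3
  rcases cr_zero (by rw [← dist_eq_norm]; exact hg) (by rw [← dist_eq_norm]; exact hV) h3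
    with h4 | h4
  · exact h1 (by linear_combination h4)
  · exact h2 (by linear_combination h4)

/-- **sides**: at every point `V` of `S(z)` one of the two colours of the pair is absent outside
and the other one is absent inside -/
theorem Irr.sides (h : Irr U T) {z V : ℂ} {a b c d : Fin k} (hz : DPt T z a b c d)
    (hV : dist V z = 1) : Sd U z V a b ∨ Sd U z V b a := by
  obtain ⟨p, hp⟩ := hz.arc2
  obtain ⟨g, hg, hgV, hgV2⟩ := hp.exists_off_line (y := V)
  have hcr := cr_ne_of hg.1 hV hgV hgV2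
  rw [← ip_I] at hcr
  rcases h.d0 hz hg with ⟨h1, h2⟩ | ⟨h1, h2⟩
  · rcases lt_or_gt_of_ne hcr with h3 | h3
    · exact Or.inr (h.mx.sd_of_rays' h1 h2 hV h3)
    · exact Or.inl (h.mx.sd_of_rays h1 h2 hV h3)
  · rcases lt_or_gt_of_ne hcr with h3 | h3
    · exact Or.inl (h.mx.sd_of_rays' h1 h2 hV h3)
    · exact Or.inr (h.mx.sd_of_rays h1 h2 hV h3)

/-- the two sides cannot both be free of `a` if `a ∈ T V` -/
theorem Irr.sd_unique (h : Irr U T) {z V : ℂ} {a b : Fin k} (ha : a ∈ T V)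
    (h1 : Sd U z V a b) (h2 : Sd U z V b a) : False := by
  obtain ⟨N, hN, hNo, hVN⟩ := _root_.mem_nhds_iff.1 (h1.and h2)
  obtain ⟨w, hwT, hwN⟩ := ((h.pure V a ha).and_eventually (hNo.mem_nhds hVN)).exists
  have hwU : w ∈ U a := h.mem_of_single (by rw [hwT])
  obtain ⟨g, ⟨hgU, hgN⟩, hgz⟩ := exists_off (h.mx.isOpen a) (z := z) (subset_closure hwU)
    (hNo.mem_nhds hwN)
  rcases lt_or_gt_of_ne hgz with h3 | h3
  · exact (hN hgN).2.2 h3 (subset_closure hgU)
  · exact (hN hgN).1.1 h3 (subset_closure hgU)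

/-- at an interior point of an exact `ab`-arc of `S(z)`, with `a` inside: solid rays -/
theorem Irr.arc_rays (h : Irr U T) {z g : ℂ} {a b : Fin k} (hg : Arc T z g {a, b})
    (hs : Sd U z g a b) : Ray (U a) g (z - g) ∧ Ray (U b) g (-(z - g)) := by
  have hgn : ‖z - g‖ = 1 := by rw [← dist_eq_norm, dist_comm]; exact hg.1
  have hcont : ∀ u : ℂ, Tendsto (fun r : ℝ => g + r * u) (𝓝[>] 0) (𝓝 g) := by
    intro u
    have : Continuous fun r : ℝ => g + r * u := by fun_prop
    have h2 := this.tendsto 0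
    simp only [Complex.ofReal_zero, zero_mul, add_zero] at h2
    exact h2.mono_left nhdsWithin_le_nhds
  have hsmall : ∀ᶠ r : ℝ in 𝓝[>] 0, 0 < r ∧ r < 1 := by
    filter_upwards [self_mem_nhdsWithin,
      mem_nhdsWithin_of_mem_nhds (Iio_mem_nhds (show (0 : ℝ) < 1 by norm_num))] with r h1 h2
    exact ⟨h1, h2⟩
  constructor
  · filter_upwards [(hcont (z - g)).eventually hs, (hcont (z - g)).eventually (h.nhd g), hsmall]
      with r h1 h2 h3
    have hd : dist (g + r * (z - g)) z < 1 := by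
      have : g + r * (z - g) - z = -((1 - r : ℝ) : ℂ) * (z - g) := by push_cast; ring
      rw [dist_eq_norm, this, norm_mul, hgn, norm_neg, Complex.norm_real,
        Real.norm_of_nonneg (by linarith)]
      linarith
    refine h.mem_of_single fun i hi => ?_
    have h4 := h2 hi
    rw [hg.mem] at h4
    rcases h4 with rfl | h4
    · rfl
    · rw [mem_singleton_iff] at h4
      subst h4
      exact absurd (h.sub _ hi) (h1.2 hd)
  · filter_upwards [(hcont (-(z - g))).eventually hs, (hcont (-(z - g))).eventually (h.nhd g),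
      hsmall] with r h1 h2 h3
    have hd : 1 < dist (g + r * -(z - g)) z := by
      have : g + r * -(z - g) - z = -((1 + r : ℝ) : ℂ) * (z - g) := by push_cast; ring
      rw [dist_eq_norm, this, norm_mul, hgn, norm_neg, Complex.norm_real,
        Real.norm_of_nonneg (by linarith)]
      linarith
    refine h.mem_of_single fun i hi => ?_
    have h4 := h2 hi
    rw [hg.mem] at h4
    rcases h4 with rfl | h4
    · exact absurd (h.sub _ hi) (h1.1 hd)
    · exact h4

/-- **sides at the centre**: `g` interior to an exact `ab`-arc of `S(z)` with `a` inside: near `z`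
the colour `a` is absent outside `S(g)` and `b` is absent inside `S(g)` -/
theorem Irr.sd_center (h : Irr U T) {z g : ℂ} {a b : Fin k} (hg : Arc T z g {a, b})
    (hs : Sd U z g a b) : Sd U g z a b := by
  obtain ⟨h1, h2⟩ := h.arc_rays hg hs
  have hgn : ‖z - g‖ = 1 := by rw [← dist_eq_norm, dist_comm]; exact hg.1
  refine h.mx.sd_of_rays h1 h2 (by rw [dist_comm]; exact hg.1) ?_
  have := ip_sq hgn
  unfold ip
  nlinarith

/-- a ray of `U x` towards `V` and a branch at `z` of the circle about `2 z - V` in the colour `x` -/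
theorem Mx.anti_core (h : Mx U) {x : Fin k} {z V u : ℂ} {τ : ℝ} (hτ : τ = 1 ∨ τ = -1)
    (hV : dist V z = 1) (hray : Ray (U x) z u) (hip : 0 < ip u (V - z))
    (hbr : ∀ᶠ t : ℝ in 𝓝[>] 0, x ∈ Pal U (2 * z - V + (V - z) * cis (τ * t))) : x ∉ Pal U V := by
  obtain ⟨δ, hδ, hd⟩ := hray.exists_delta
  obtain ⟨δ', hδ', hd'⟩ := mem_nhdsGT_iff_exists_Ioo_subset.1 hbr
  rw [mem_Ioi] at hδ'
  have hVn : ‖V - z‖ = 1 := by rw [← dist_eq_norm]; exact hV
  obtain ⟨r, hr0, hrδ, hr⟩ : ∃ r : ℝ, 0 < r ∧ r < δ ∧ r * ip u u < 2 * ip u (V - z) := by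
    have h0 : 0 ≤ ip u u := by unfold ip; nlinarith [sq_nonneg u.re, sq_nonneg u.im]
    refine ⟨min (δ / 2) (ip u (V - z) / (ip u u + 1)), by positivity,
      lt_of_le_of_lt (min_le_left _ _) (by linarith), ?_⟩
    have h1 : min (δ / 2) (ip u (V - z) / (ip u u + 1)) ≤ ip u (V - z) / (ip u u + 1) :=
      min_le_right _ _
    have h2 : ip u (V - z) / (ip u u + 1) * ip u u ≤ ip u (V - z) := by
      rw [div_mul_eq_mul_div, div_le_iff₀ (by linarith)]
      nlinarith
    nlinarith [mul_le_mul_of_nonneg_right h1 h0]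
  have h3 : dist (z + r * u) V < 1 := by
    have h4 := sq_line z u V r
    rw [dist_comm z V, hV] at h4
    have h5 := dist_nonneg (x := z + r * u) (y := V)
    nlinarith
  set t1 := min (δ' / 2) 1 with ht1
  have ht0 : 0 < t1 := by positivity
  have ht11 : t1 ≤ 1 := min_le_right _ _
  have ht1δ : t1 < δ' := lt_of_le_of_lt (min_le_left _ _) (by linarith)
  have hfar : 1 < dist (2 * z - V + (V - z) * cis (τ * t1)) V := by
    have e1 : 2 * z - V + (V - z) * cis (τ * t1) - V = (V - z) * (cis (τ * t1) - 2) := by ring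
    rw [dist_eq_norm, e1, norm_mul, hVn, one_mul]
    have hcos : Real.cos (τ * t1) < 1 := by
      have hc : Real.cos (τ * t1) = Real.cos t1 := by
        rcases hτ with rfl | rfl
        · rw [one_mul]
        · rw [neg_one_mul, Real.cos_neg]
      rw [hc, ← Real.cos_zero]
      exact Real.cos_lt_cos_of_nonneg_of_le_pi le_rfl (by linarith [Real.pi_gt_three]) ht0
    have h6 : ‖cis (τ * t1) - 2‖ ^ 2 = 5 - 4 * Real.cos (τ * t1) := by
      rw [Complex.sq_norm, Complex.normSq_apply]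
      simp only [Complex.sub_re, Complex.sub_im, cis_re, cis_im]
      have := Real.sin_sq_add_cos_sq (τ * t1)
      simp
      nlinarith
    have h7 := norm_nonneg (cis (τ * t1) - 2)
    nlinarith
  have hzx : z ∈ closure (U x) := by
    have hcont : Tendsto (fun r : ℝ => z + r * u) (𝓝[>] 0) (𝓝 z) := by
      have : Continuous fun r : ℝ => z + r * u := by fun_prop
      have h2 := this.tendsto 0
      simp only [Complex.ofReal_zero, zero_mul, add_zero] at h2
      exact h2.mono_left nhdsWithin_le_nhds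
    exact mem_closure_of_tendsto hcont hray
  set A := (fun s : ℝ => z + s * u) '' Icc 0 r with hA
  set B := (fun s : ℝ => 2 * z - V + (V - z) * cis (τ * s)) '' Icc 0 t1 with hB
  have hApre : IsPreconnected A := isPreconnected_Icc.image _ (by fun_prop)
  have hBpre : IsPreconnected B := isPreconnected_Icc.image _ (by
    refine Continuous.continuousOn ?_
    exact continuous_const.add (continuous_const.mul (continuous_cis.comp
      (continuous_const.mul continuous_id))))
  have hzA : z ∈ A := ⟨0, ⟨le_rfl, hr0.le⟩, by simp⟩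
  have hzB : z ∈ B := ⟨0, ⟨le_rfl, ht0.le⟩, by simp [cis]; ring⟩
  have hAB : IsPreconnected (A ∪ B) := hApre.union z hzA hzB hBpre
  have hsub : A ∪ B ⊆ closure (U x) := by
    rintro w (⟨s, hs, rfl⟩ | ⟨s, hs, rfl⟩)
    · rcases hs.1.eq_or_lt with h8 | h8
      · rw [← h8]; simpa using hzx
      · exact subset_closure (hd s h8 (lt_of_le_of_lt hs.2 hrδ))
    · rcases hs.1.eq_or_lt with h8 | h8
      · have e2 : 2 * z - V + (V - z) * cis (τ * s) = z := by
          rw [← h8]; simp [cis]; ring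
        simp only [e2]
        exact hzx
      · exact hd' ⟨h8, lt_of_le_of_lt hs.2 ht1δ⟩
  exact h.wlemma hAB hsub (Or.inl ⟨r, ⟨hr0.le, le_rfl⟩, rfl⟩)
    (Or.inr ⟨t1, ⟨ht0.le, le_rfl⟩, rfl⟩) h3 hfar

theorem tendsto_branch (z V : ℂ) (τ : ℝ) :
    Tendsto (fun t : ℝ => 2 * z - V + (V - z) * cis (τ * t)) (𝓝[>] 0) (𝓝 z) := by
  have : Continuous fun t : ℝ => 2 * z - V + (V - z) * cis (τ * t) :=
    continuous_const.add (continuous_const.mul (continuous_cis.comp
      (continuous_const.mul continuous_id)))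
  have h2 := this.tendsto 0
  have e : 2 * z - V + (V - z) * cis (τ * 0) = z := by simp [cis]; ring
  rw [e] at h2
  exact h2.mono_left nhdsWithin_le_nhds

/-- the direction of the branch -/
theorem branch_der {z V g : ℂ} (τ : ℝ) :
    HasDerivAt (fun t : ℝ => dist (2 * z - V + (V - z) * cis (τ * t)) g ^ 2)
      (-2 * (τ * cr (V - z) (g - z))) 0 := by
  have hc0 : HasDerivAt (fun t : ℝ => cis (τ * t)) (Complex.I * cis (τ * 0) * (τ : ℂ)) 0 := by
    have h1 := hasDerivAt_cis (τ * 0)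
    have h2 : HasDerivAt (fun t : ℝ => τ * t) τ 0 := by
      simpa using (hasDerivAt_id (0 : ℝ)).const_mul τ
    have h3 := h1.scomp (0 : ℝ) h2
    refine h3.congr_deriv ?_
    rw [Complex.real_smul]; ring
  have h0 : HasDerivAt (fun t : ℝ => 2 * z - V + (V - z) * cis (τ * t))
      ((V - z) * (Complex.I * cis (τ * 0) * (τ : ℂ))) 0 := (hc0.const_mul (V - z)).const_add _
  have hre := Complex.reCLM.hasFDerivAt.comp_hasDerivAt (0 : ℝ) h0
  have him := Complex.imCLM.hasFDerivAt.comp_hasDerivAt (0 : ℝ) h0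
  have h4 := ((hre.sub_const g.re).pow 2).add ((him.sub_const g.im).pow 2)
  have h5 : (fun t : ℝ => dist (2 * z - V + (V - z) * cis (τ * t)) g ^ 2) =
      fun t : ℝ => ((2 * z - V + (V - z) * cis (τ * t)).re - g.re) ^ 2 +
        ((2 * z - V + (V - z) * cis (τ * t)).im - g.im) ^ 2 := by
    funext t; rw [sq_dist]
  rw [h5]
  refine h4.congr_deriv ?_
  have e : cis 0 = 1 := by simp [cis]
  simp [e, cr]
  ring

theorem branch_in {z V g : ℂ} (hgz : dist g z = 1) {τ : ℝ} (hs : 0 < τ * cr (V - z) (g - z)) :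
    ∀ᶠ t : ℝ in 𝓝[>] 0, dist (2 * z - V + (V - z) * cis (τ * t)) g < 1 := by
  have hneg : -2 * (τ * cr (V - z) (g - z)) < 0 := by linarith
  have h6 := (hasDerivAt_iff_tendsto_slope.1 (branch_der (z := z) (V := V) (g := g) τ)).eventually
    (Iio_mem_nhds hneg)
  have h7 : ∀ᶠ t : ℝ in 𝓝[>] 0,
      slope (fun t : ℝ => dist (2 * z - V + (V - z) * cis (τ * t)) g ^ 2) 0 t < 0 :=
    h6.filter_mono (nhdsWithin_mono _ fun t ht => ne_of_gt ht)
  filter_upwards [h7, self_mem_nhdsWithin] with t h8 h9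
  rw [mem_Ioi] at h9
  rw [slope_def_field, div_neg_iff] at h8
  have e : 2 * z - V + (V - z) * cis (τ * 0) = z := by simp [cis]; ring
  simp only [e] at h8
  rw [dist_comm z g, hgz] at h8
  have h10 := dist_nonneg (x := 2 * z - V + (V - z) * cis (τ * t)) (y := g)
  rcases h8 with ⟨h11, h12⟩ | ⟨h11, h12⟩
  · linarith
  · nlinarith

theorem branch_out {z V g : ℂ} (hgz : dist g z = 1) {τ : ℝ} (hs : τ * cr (V - z) (g - z) < 0) :
    ∀ᶠ t : ℝ in 𝓝[>] 0, 1 < dist (2 * z - V + (V - z) * cis (τ * t)) g := by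
  have hneg : 0 < -2 * (τ * cr (V - z) (g - z)) := by linarith
  have h6 := (hasDerivAt_iff_tendsto_slope.1 (branch_der (z := z) (V := V) (g := g) τ)).eventually
    (Ioi_mem_nhds hneg)
  have h7 : ∀ᶠ t : ℝ in 𝓝[>] 0,
      0 < slope (fun t : ℝ => dist (2 * z - V + (V - z) * cis (τ * t)) g ^ 2) 0 t :=
    h6.filter_mono (nhdsWithin_mono _ fun t ht => ne_of_gt ht)
  filter_upwards [h7, self_mem_nhdsWithin] with t h8 h9
  rw [mem_Ioi] at h9
  rw [slope_def_field, div_pos_iff] at h8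
  have e : 2 * z - V + (V - z) * cis (τ * 0) = z := by simp [cis]; ring
  simp only [e] at h8
  rw [dist_comm z g, hgz] at h8
  have h10 := dist_nonneg (x := 2 * z - V + (V - z) * cis (τ * t)) (y := g)
  rcases h8 with ⟨h11, h12⟩ | ⟨h11, h12⟩
  · nlinarith
  · linarith

/-- a branch of `S(2 z - V)` at `z` without `b` has the colour `a` -/
theorem Irr.branch (h : Irr U T) {z V : ℂ} {a b c d : Fin k} (hz : DPt T z a b c d)
    (hV : dist V z = 1) (hc : c ∈ Pal U (2 * z - V)) (hd : d ∈ Pal U (2 * z - V)) {τ : ℝ}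
    (hno : ∀ᶠ t : ℝ in 𝓝[>] 0, b ∉ Pal U (2 * z - V + (V - z) * cis (τ * t))) :
    ∀ᶠ t : ℝ in 𝓝[>] 0, a ∈ Pal U (2 * z - V + (V - z) * cis (τ * t)) := by
  have hVn : ‖V - z‖ = 1 := by rw [← dist_eq_norm]; exact hV
  obtain ⟨p, hp⟩ := hz.arc2
  have hnl := h.no_layer (z := z) (q := p) hp.1
  have hcont := tendsto_branch z V τ
  filter_upwards [hno, hcont.eventually (h.nhd z), hcont.eventually hnl] with t h1 h3 h4
  set w := 2 * z - V + (V - z) * cis (τ * t) with hw
  have hwQ : dist w (2 * z - V) = 1 := by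
    rw [hw, dist_eq_norm, add_sub_cancel_left, norm_mul, hVn, norm_cis, one_mul]
  have hcU : w ∉ U c := h.mx.notMem hc hwQ
  have hdU : w ∉ U d := h.mx.notMem hd hwQ
  have hb : b ∉ T w := fun hb => h1 (h.sub _ hb)
  by_contra ha
  have ha' : a ∉ T w := fun ha' => ha (h.sub _ ha')
  have h5 : T w ⊆ {c, d} := by
    intro i hi
    have := h3 hi
    rw [hz.pal] at this
    rcases this with rfl | rfl | rfl | hid
    · exact absurd hi ha'
    · exact absurd hi hb
    · simp
    · right; exact hid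
  by_cases hcT : c ∈ T w
  · by_cases hdT : d ∈ T w
    · have h6 : T w = {c, d} := by
        refine Subset.antisymm h5 ?_
        rintro i (rfl | hi)
        · exact hcT
        · rw [mem_singleton_iff] at hi; subst hi; exact hdT
      have h7 := h4 (by rw [hp.mem, h6])
      rw [h6, Set.ncard_pair hz.cd] at h7
      omega
    · refine hcU (h.mem_of_single fun i hi => ?_)
      rcases h5 hi with rfl | h6
      · rfl
      · rw [mem_singleton_iff] at h6; subst h6; exact absurd hi hdT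
  · refine hdU (h.mem_of_single fun i hi => ?_)
    rcases h5 hi with rfl | h6
    · exact absurd hi hcT
    · exact h6

theorem Irr.anti_aux (h : Irr U T) {z V g : ℂ} {a b c d : Fin k} (hz : DPt T z a b c d)
    (hV : dist V z = 1) (ha : a ∈ Pal U V) (hb : b ∈ Pal U V) (hc : c ∈ Pal U (2 * z - V))
    (hd : d ∈ Pal U (2 * z - V)) (hg : Arc T z g {a, b}) (hgV : g ≠ V) (hgV2 : g + V ≠ 2 * z)
    (hs : Sd U z g a b) : False := by
  have hcen := h.sd_center hg hs
  have hcr := cr_ne_of hg.1 hV hgV hgV2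
  have hcr' : cr (V - z) (g - z) ≠ 0 := by
    intro h0
    apply hcr
    unfold cr at h0 ⊢
    linarith
  -- branches
  have brA : ∀ τ : ℝ, 0 < τ * cr (V - z) (g - z) →
      ∀ᶠ t : ℝ in 𝓝[>] 0, a ∈ Pal U (2 * z - V + (V - z) * cis (τ * t)) := by
    intro τ hτ
    refine h.branch hz hV hc hd ?_
    filter_upwards [branch_in hg.1 hτ, (tendsto_branch z V τ).eventually hcen] with t h1 h2
    exact h2.2 h1
  have brB : ∀ τ : ℝ, τ * cr (V - z) (g - z) < 0 →
      ∀ᶠ t : ℝ in 𝓝[>] 0, b ∈ Pal U (2 * z - V + (V - z) * cis (τ * t)) := by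
    intro τ hτ
    refine h.branch hz.swap12 hV hc hd ?_
    filter_upwards [branch_out hg.1 hτ, (tendsto_branch z V τ).eventually hcen] with t h1 h2
    exact h2.1 h1
  have hbrA : ∃ τ : ℝ, (τ = 1 ∨ τ = -1) ∧
      ∀ᶠ t : ℝ in 𝓝[>] 0, a ∈ Pal U (2 * z - V + (V - z) * cis (τ * t)) := by
    rcases lt_or_gt_of_ne hcr' with h1 | h1
    · exact ⟨-1, Or.inr rfl, brA _ (by linarith)⟩
    · exact ⟨1, Or.inl rfl, brA _ (by linarith)⟩
  have hbrB : ∃ τ : ℝ, (τ = 1 ∨ τ = -1) ∧
      ∀ᶠ t : ℝ in 𝓝[>] 0, b ∈ Pal U (2 * z - V + (V - z) * cis (τ * t)) := by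
    rcases lt_or_gt_of_ne hcr' with h1 | h1
    · exact ⟨1, Or.inl rfl, brB _ (by linarith)⟩
    · exact ⟨-1, Or.inr rfl, brB _ (by linarith)⟩
  obtain ⟨τa, hτa, hA⟩ := hbrA
  obtain ⟨τb, hτb, hB⟩ := hbrB
  -- the rays
  obtain ⟨p, hp⟩ := hz.arc2
  obtain ⟨q, hq, hqV, hqV2⟩ := hp.exists_off_line (y := V)
  have hcrq := cr_ne_of hq.1 hV hqV hqV2
  rw [← ip_I] at hcrq
  rcases h.d0 hz hq with ⟨h1, h2⟩ | ⟨h1, h2⟩
  · rcases lt_or_gt_of_ne hcrq with h3 | h3
    · exact h.mx.anti_core hτb hV h2 (by rw [ip_neg]; linarith) hB hb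
    · exact h.mx.anti_core hτa hV h1 h3 hA ha
  · rcases lt_or_gt_of_ne hcrq with h3 | h3
    · exact h.mx.anti_core hτa hV h2 (by rw [ip_neg]; linarith) hA ha
    · exact h.mx.anti_core hτb hV h1 h3 hB hb

/-- **`A` and `C` are never antipodal** -/
theorem Irr.anti (h : Irr U T) {z V : ℂ} {a b c d : Fin k} (hz : DPt T z a b c d)
    (hV : dist V z = 1) (ha : a ∈ Pal U V) (hb : b ∈ Pal U V) (hc : c ∈ Pal U (2 * z - V))
    (hd : d ∈ Pal U (2 * z - V)) : False := by
  obtain ⟨p, hp⟩ := hz.arc1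
  obtain ⟨g, hg, hgV, hgV2⟩ := hp.exists_off_line (y := V)
  rcases h.sides hz hg.1 with hs | hs
  · exact h.anti_aux hz hV ha hb hc hd hg hgV hgV2 hs
  · exact h.anti_aux hz.swap12 hV hb ha hc hd (by rwa [pair_comm]) hgV hgV2 hs

end Vale.Agent.P032.Six
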