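import Vale.Agent.P032.S5.H80.Ends
import Vale.Agent.P032.S5.H12.Rh
import Vale.Agent.P032.S5.H394.Ends

/-!
# P032: automatic ends in the form `OEnd`, `En`

`Irr.auto`: `|T z| = 4`, exact arcs with the two complementary pairs on `S(z)`; then every point
`V ∈ S(z)` with `T V = X` is a clean end of `S(z)` and of `S(V + Q - z)`, if `T Q = Xᶜ`, `Q ∈ S(z)` and
`|T (V + Q - z)| ≤ 4`.
-/

open Set Filter Topology Metric

noncomputable section

namespace Vale.Agent.P032.Six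

variable {U : Fin 6 → Set ℂ} {T : ℂ → Set (Fin 6)}

/-- the colours of a configuration -/
theorem exists_cfg {X : Set (Fin 6)} {z V Q p p' : ℂ} (hX : X.ncard = 3) (hz : (T z).ncard = 4)
    (h2 : (T z ∩ X).ncard = 2) (hp : Arc T z p (T z ∩ X)) (hp' : Arc T z p' (T z ∩ Xᶜ))
    (hV : dist V z = 1) (hQ : dist Q z = 1) (hTV : T V = X) (hTQ : T Q = Xᶜ) :
    ∃ a b c d e f, Cfg T z V Q a b c d e f := by
  have n1 := Set.ncard_inter_add_ncard_sdiff_eq_ncard (T z) X (Set.toFinite _)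
  have n2 := Set.ncard_inter_add_ncard_sdiff_eq_ncard X (T z) (Set.toFinite _)
  have n3 : Xᶜ.ncard = 3 := by
    have := Set.ncard_add_ncard_compl X (Set.toFinite _) (Set.toFinite _)
    rw [hX] at this
    simp at this
    omega
  have n4 := Set.ncard_inter_add_ncard_sdiff_eq_ncard Xᶜ (T z) (Set.toFinite _)
  have e1 : T z \ X = T z ∩ Xᶜ := rfl
  rw [inter_comm X] at n2
  rw [inter_comm Xᶜ, ← e1] at n4
  obtain ⟨a, b, hab, hA⟩ := Set.ncard_eq_two.1 h2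
  obtain ⟨c, d, hcd, hC⟩ := Set.ncard_eq_two.1 (show (T z \ X).ncard = 2 by omega)
  obtain ⟨e, hE⟩ := Set.ncard_eq_one.1 (show (X \ T z).ncard = 1 by omega)
  obtain ⟨f, hF⟩ := Set.ncard_eq_one.1 (show (Xᶜ \ T z).ncard = 1 by omega)
  have ha : a ∈ T z ∩ X := by rw [hA]; simp
  have hb : b ∈ T z ∩ X := by rw [hA]; simp
  have hc : c ∈ T z \ X := by rw [hC]; simp
  have hd : d ∈ T z \ X := by rw [hC]; simp
  have he : e ∈ X \ T z := by rw [hE]; simp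
  have hf : f ∈ Xᶜ \ T z := by rw [hF]; simp
  have hXe : X = {a, b, e} := by
    have : X = (T z ∩ X) ∪ (X \ T z) := by
      ext i; simp only [mem_union, mem_inter_iff, Set.mem_sdiff]; tauto
    rw [this, hA, hE]; ext i; simp only [mem_union, mem_insert_iff, mem_singleton_iff]; tauto
  have hXf : Xᶜ = {c, d, f} := by
    have : Xᶜ = (T z \ X) ∪ (Xᶜ \ T z) := by
      ext i; simp only [mem_union, mem_compl_iff, Set.mem_sdiff]; tauto
    rw [this, hC, hF]; ext i; simp only [mem_union, mem_insert_iff, mem_singleton_iff]; tauto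
  refine ⟨a, b, c, d, e, f, ⟨?_, ?_, ?_, ?_, ?_, hab, hcd, ?_, ?_⟩, hV, hQ, hTV.trans hXe,
    hTQ.trans hXf, he.2, hf.2, ?_⟩
  · have : T z = (T z ∩ X) ∪ (T z \ X) := by
      ext i; simp only [mem_union, mem_inter_iff, Set.mem_sdiff]; tauto
    rw [this, hA, hC]; ext i; simp only [mem_union, mem_insert_iff, mem_singleton_iff]; tauto
  · rintro rfl; exact hc.2 ha.2
  · rintro rfl; exact hd.2 ha.2
  · rintro rfl; exact hc.2 hb.2
  · rintro rfl; exact hd.2 hb.2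
  · exact ⟨p, by rw [← hA]; exact hp⟩
  · exact ⟨p', by rw [← hC]; exact hp'⟩
  · rintro rfl; exact hf.1 he.1

namespace NCfg

variable {z V Q : ℂ} {a b c d e f : Fin 6}

theorem inter_V (C : NCfg T z V Q a b c d e f) : T z ∩ T V = {a, b} := by
  rw [C.dp.pal, C.TV]
  ext i
  simp only [mem_inter_iff, mem_insert_iff, mem_singleton_iff]
  constructor
  · rintro ⟨h1, h2⟩
    rcases h2 with rfl | rfl | rfl
    · exact Or.inl rfl
    · exact Or.inr rfl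
    · rcases h1 with h1 | h1 | h1 | h1
      · exact Or.inl h1
      · exact Or.inr h1
      · exact absurd h1 C.ec
      · exact absurd h1 C.ed
  · rintro (rfl | rfl)
    · exact ⟨Or.inl rfl, Or.inl rfl⟩
    · exact ⟨Or.inr (Or.inl rfl), Or.inr (Or.inl rfl)⟩

theorem card_z (C : NCfg T z V Q a b c d e f) : (T z).ncard = 4 := by
  rw [C.dp.pal, Set.ncard_insert_of_notMem, Set.ncard_insert_of_notMem, Set.ncard_pair C.dp.cd]
  · simp [C.dp.bc, C.dp.bd]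
  · simp [C.dp.ab, C.dp.ac, C.dp.ad]

theorem card_V (C : NCfg T z V Q a b c d e f) : (T V).ncard = 3 := by
  rw [C.TV, Set.ncard_insert_of_notMem, Set.ncard_pair C.eb.symm]
  simp [C.dp.ab, C.ea.symm]

/-- `V` is an end of `S(z)`, with (LP1) -/
theorem oend (C : NCfg T z V Q a b c d e f) (h : Irr U T) :
    ∃ o, OEnd T z V o ∧ CEnd T z V {a, b} e o ∧
      (Sd U (V + Q - z) V a e ∧ 0 < o * cr (z - V) (V + Q - z - V) ∨
        Sd U (V + Q - z) V e a ∧ o * cr (z - V) (V + Q - z - V) < 0) := by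
  obtain ⟨o, h1, h2⟩ := C.lp1 h
  refine ⟨o, ⟨h1.o1, C.hV, C.card_z, C.card_V, ?_, ?_⟩, h1, h2⟩
  · rw [C.inter_V, Set.ncard_pair C.dp.ab]
  · obtain ⟨ε, hε, h3⟩ := mem_nhdsGT_iff_exists_Ioo_subset.1 h1.arc
    refine ⟨ε, hε, fun t ht => ?_⟩
    rw [C.inter_V, ← h3 ht, neg_mul]

end NCfg

/-- a configuration in normal form -/
theorem Cfg.exists_normal {z V Q : ℂ} {a b c d e f : Fin 6} (C : Cfg T z V Q a b c d e f)
    (h : Irr U T) (h4 : (T (V + Q - z)).ncard ≤ 4) :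
    ∃ a' b' c' d', NCfg T z V Q a' b' c' d' e f := by
  rcases C.normal h h4 with h1 | h1 | h1 | h1
  · exact ⟨_, _, _, _, h1⟩
  · exact ⟨_, _, _, _, h1⟩
  · exact ⟨_, _, _, _, h1⟩
  · exact ⟨_, _, _, _, h1⟩

/-- **automatic ends**: normal form -/
theorem Irr.auto (h : Irr U T) {X : Set (Fin 6)} {z V Q p p' : ℂ} (hX : X.ncard = 3)
    (hz : (T z).ncard = 4) (h2 : (T z ∩ X).ncard = 2) (hp : Arc T z p (T z ∩ X))
    (hp' : Arc T z p' (T z ∩ Xᶜ)) (hV : dist V z = 1) (hQ : dist Q z = 1) (hTV : T V = X)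
    (hTQ : T Q = Xᶜ) (h4 : (T (V + Q - z)).ncard ≤ 4) :
    ∃ a b c d e f, NCfg T z V Q a b c d e f := by
  obtain ⟨a, b, c, d, e, f, C⟩ := exists_cfg hX hz h2 hp hp' hV hQ hTV hTQ
  obtain ⟨a', b', c', d', C'⟩ := C.exists_normal h h4
  exact ⟨_, _, _, _, _, _, C'⟩

/-- **automatic ends**, `OEnd` form at both centres -/
theorem Irr.auto_oend (h : Irr U T) {X : Set (Fin 6)} {z V Q p p' : ℂ} (hX : X.ncard = 3)
    (hz : (T z).ncard = 4) (h2 : (T z ∩ X).ncard = 2) (hp : Arc T z p (T z ∩ X))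
    (hp' : Arc T z p' (T z ∩ Xᶜ)) (hV : dist V z = 1) (hQ : dist Q z = 1) (hTV : T V = X)
    (hTQ : T Q = Xᶜ) (h4 : (T (V + Q - z)).ncard ≤ 4) :
    (∃ o, OEnd T z V o) ∧ (∃ o, OEnd T z Q o) ∧ (∃ o, OEnd T (V + Q - z) V o) ∧
      ∃ o, OEnd T (V + Q - z) Q o := by
  obtain ⟨a, b, c, d, e, f, C⟩ := h.auto hX hz h2 hp hp' hV hQ hTV hTQ h4
  refine ⟨?_, ?_, ?_, ?_⟩
  · obtain ⟨o, h1, -⟩ := C.oend h
    exact ⟨o, h1⟩
  · obtain ⟨o, h1, -⟩ := C.swap.oend h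
    exact ⟨o, h1⟩
  · obtain ⟨o, h1, -⟩ := (C.conj h).oend h
    exact ⟨o, h1⟩
  · obtain ⟨o, h1, -⟩ := (C.conj h).swap.oend h
    exact ⟨o, h1⟩

/-- an end gives an exact arc -/
theorem En.exists_arc (h : Irr U T) {X : Set (Fin 6)} {z v : ℂ} (hE : En T X z v) :
    ∃ p, Arc T z p (T z ∩ X) := by
  obtain ⟨y, -, hy, hy2⟩ := h.en_acc hE univ univ_mem
  exact ⟨y, hy, hy2⟩

theorem OEnd.en {X : Set (Fin 6)} {z v : ℂ} {o : ℝ} (hX : T v = X) (hE : OEnd T z v o) :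
    En T X z v := by
  obtain ⟨ho, hv, h4, -, h2, ε, hε, harc⟩ := hE
  rw [hX] at h2 harc
  exact ⟨hX, h4, h2, hv, o, ε, ho, hε, harc⟩

/-- **(80.2), (80.3)**: complementary ends `v`, `q` of `S(z)`; every point `y ∈ S(z)` with `T y = X` is
an `X`-end of `S(z)` and of `S(y + q - z)`, and `q` is an `Xᶜ`-end of `S(y + q - z)` -/
theorem Irr.en_auto (h : Irr U T) {X : Set (Fin 6)} {z v q y : ℂ} (hX : X.ncard = 3)
    (hv : En T X z v) (hq : En T Xᶜ z q) (hy : dist y z = 1) (hTy : T y = X)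
    (h4 : (T (y + q - z)).ncard ≤ 4) :
    En T X z y ∧ En T X (y + q - z) y ∧ En T Xᶜ (y + q - z) q := by
  obtain ⟨p, hp⟩ := hv.exists_arc h
  obtain ⟨p', hp'⟩ := hq.exists_arc h
  obtain ⟨h1, -, h3, h4'⟩ := h.auto_oend hX hv.2.1 hv.2.2.1 hp hp' hy hq.2.2.2.1 hTy hq.1 h4
  obtain ⟨o1, h1⟩ := h1
  obtain ⟨o3, h3⟩ := h3
  obtain ⟨o4, h4'⟩ := h4'
  exact ⟨h1.en hTy, h3.en hTy, h4'.en hq.1⟩

end Vale.Agent.P032.Six
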