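import Vale.Agent.P032.S5.H80.Clean

/-!
# P032: the rhombus at a two-pair centre

`Cfg`: `T z = {a, b, c, d}` with both pairs, `V, Q ∈ S(z)`, `T V = {a, b, e}`, `T Q = {c, d, f}`.
-/

open Set Filter Topology Metric

noncomputable section

namespace Vale.Agent.P032.Six

/-- a two-pair centre with two complementary points on its circle -/
structure Cfg (T : ℂ → Set (Fin 6)) (z V Q : ℂ) (a b c d e f : Fin 6) : Prop where
  dp : DPt T z a b c d
  hV : dist V z = 1
  hQ : dist Q z = 1
  TV : T V = {a, b, e}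
  TQ : T Q = {c, d, f}
  he : e ∉ T z
  hf : f ∉ T z
  ef : e ≠ f

variable {U : Fin 6 → Set ℂ} {T : ℂ → Set (Fin 6)}

namespace Cfg

variable {z V Q : ℂ} {a b c d e f : Fin 6}

theorem ea (C : Cfg T z V Q a b c d e f) : e ≠ a := fun h => C.he (by rw [C.dp.pal, h]; simp)
theorem eb (C : Cfg T z V Q a b c d e f) : e ≠ b := fun h => C.he (by rw [C.dp.pal, h]; simp)
theorem ec (C : Cfg T z V Q a b c d e f) : e ≠ c := fun h => C.he (by rw [C.dp.pal, h]; simp)
theorem ed (C : Cfg T z V Q a b c d e f) : e ≠ d := fun h => C.he (by rw [C.dp.pal, h]; simp)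
theorem fa (C : Cfg T z V Q a b c d e f) : f ≠ a := fun h => C.hf (by rw [C.dp.pal, h]; simp)
theorem fb (C : Cfg T z V Q a b c d e f) : f ≠ b := fun h => C.hf (by rw [C.dp.pal, h]; simp)
theorem fc (C : Cfg T z V Q a b c d e f) : f ≠ c := fun h => C.hf (by rw [C.dp.pal, h]; simp)
theorem fd (C : Cfg T z V Q a b c d e f) : f ≠ d := fun h => C.hf (by rw [C.dp.pal, h]; simp)

/-- all six colours -/
theorem cover (C : Cfg T z V Q a b c d e f) (i : Fin 6) :
    i = a ∨ i = b ∨ i = c ∨ i = d ∨ i = e ∨ i = f := by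
  have h1 : ({a, b, c, d, e, f} : Finset (Fin 6)) = Finset.univ := by
    refine Finset.eq_univ_of_card _ ?_
    rw [Finset.card_insert_of_notMem, Finset.card_insert_of_notMem, Finset.card_insert_of_notMem,
      Finset.card_insert_of_notMem, Finset.card_insert_of_notMem, Finset.card_singleton]
    · rfl
    · simp [C.ef]
    · simp [C.ed.symm, C.fd.symm]
    · simp [C.dp.cd, C.ec.symm, C.fc.symm]
    · simp [C.dp.bc, C.dp.bd, C.eb.symm, C.fb.symm]
    · simp [C.dp.ab, C.dp.ac, C.dp.ad, C.ea.symm, C.fa.symm]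
  have := Finset.mem_univ i
  rw [← h1] at this
  simpa using this

theorem swap (C : Cfg T z V Q a b c d e f) : Cfg T z Q V c d a b f e where
  dp := C.dp.swap
  hV := C.hQ
  hQ := C.hV
  TV := C.TQ
  TQ := C.TV
  he := C.hf
  hf := C.he
  ef := C.ef.symm

theorem swap12 (C : Cfg T z V Q a b c d e f) : Cfg T z V Q b a c d e f where
  dp := C.dp.swap12
  hV := C.hV
  hQ := C.hQ
  TV := by rw [C.TV]; ext i; simp only [mem_insert_iff, mem_singleton_iff]; tauto
  TQ := C.TQ
  he := C.he
  hf := C.hf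
  ef := C.ef

theorem swap34 (C : Cfg T z V Q a b c d e f) : Cfg T z V Q a b d c e f := C.swap.swap12.swap

theorem VQ (C : Cfg T z V Q a b c d e f) : V ≠ Q := by
  intro h0
  have h1 : a ∈ T V := by rw [C.TV]; simp
  rw [h0, C.TQ] at h1
  simp only [mem_insert_iff, mem_singleton_iff] at h1
  rcases h1 with h1 | h1 | h1
  · exact C.dp.ac h1
  · exact C.dp.ad h1
  · exact C.fa h1.symm

theorem anti (C : Cfg T z V Q a b c d e f) (h : Irr U T) : V + Q ≠ 2 * z := by
  intro h0
  have h1 : 2 * z - V = Q := by linear_combination -h0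
  refine h.anti C.dp C.hV (h.sub _ (by rw [C.TV]; simp)) (h.sub _ (by rw [C.TV]; simp)) ?_ ?_
  · rw [h1]; exact h.sub _ (by rw [C.TQ]; simp)
  · rw [h1]; exact h.sub _ (by rw [C.TQ]; simp)

theorem wV (C : Cfg T z V Q a b c d e f) : dist (V + Q - z) V = 1 := by
  rw [dist_eq_norm, show V + Q - z - V = Q - z by ring, ← dist_eq_norm]; exact C.hQ

theorem wQ (C : Cfg T z V Q a b c d e f) : dist (V + Q - z) Q = 1 := by
  rw [dist_eq_norm, show V + Q - z - Q = V - z by ring, ← dist_eq_norm]; exact C.hV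

theorem zw (C : Cfg T z V Q a b c d e f) (h : Irr U T) : z ≠ V + Q - z := by
  intro h0
  exact C.anti h (by linear_combination -h0)

theorem cV (C : Cfg T z V Q a b c d e f) : (T V).ncard ≤ 3 := by
  rw [C.TV]; exact Set.ncard_insert_le _ _ |>.trans (by
    have := Set.ncard_insert_le b ({e} : Set (Fin 6)); rw [Set.ncard_singleton] at this; omega)

theorem cQ (C : Cfg T z V Q a b c d e f) : (T Q).ncard ≤ 3 := C.swap.cV

/-- at least two colours of `T V` at `w` -/
theorem two_V (C : Cfg T z V Q a b c d e f) (h : Irr U T) (s : Fin 6) :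
    ∃ t ∈ T (V + Q - z), t ∈ T V ∧ t ≠ s := by
  refine h.five (u := V) (u' := Q) (q := V + Q - z) C.cQ ?_ C.VQ C.wV C.wQ ?_ s
  · intro i
    rw [C.TV, C.TQ]
    rcases C.cover i with rfl | rfl | rfl | rfl | rfl | rfl <;> simp
  · intro h0
    exact C.anti h (by linear_combination -h0)

theorem V_XX (C : Cfg T z V Q a b c d e f) (h : Irr U T) : V ∈ XX U :=
  h.mem_XX (y := z) (i := a) C.hV (by rw [C.TV]; simp) (h.sub _ (by rw [C.dp.pal]; simp))

/-- **`e` is a colour of `w`** -/
theorem e_mem (C : Cfg T z V Q a b c d e f) (h : Irr U T) : e ∈ T (V + Q - z) := by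
  by_contra hew
  set w := V + Q - z with hw
  have hwV : dist V w = 1 := by rw [dist_comm]; exact C.wV
  have hwQ : dist Q w = 1 := by rw [dist_comm]; exact C.wQ
  have hzw := C.zw h
  rw [← hw] at hzw
  have haw : a ∈ T w := by
    obtain ⟨t, h1, h2, h3⟩ := C.two_V h b
    rw [C.TV] at h2
    rcases h2 with rfl | h2 | h2
    · exact h1
    · exact absurd h2 h3
    · rw [mem_singleton_iff] at h2; subst h2; exact absurd h1 hew
  have hbw : b ∈ T w := by
    obtain ⟨t, h1, h2, h3⟩ := C.two_V h a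
    rw [C.TV] at h2
    rcases h2 with h2 | rfl | h2
    · exact absurd h2 h3
    · exact h1
    · rw [mem_singleton_iff] at h2; subst h2; exact absurd h1 hew
  have hne2 : ∀ y : ℂ, (y = w ∨ y + w = 2 * V) → (y = z ∨ y + z = 2 * V) → False := by
    intro y h1 h2
    have hV0 : V ≠ Q := C.VQ
    rcases h1 with h1 | h1 <;> rcases h2 with h2 | h2
    · exact hzw (by rw [← h1, ← h2])
    · refine hV0 ?_
      have h3 : w + z = 2 * V := by rw [← h1]; exact h2
      rw [hw] at h3
      linear_combination -h3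
    · refine hV0 ?_
      have h3 : z + w = 2 * V := by rw [← h2]; exact h1
      rw [hw] at h3
      linear_combination -h3
    · exact hzw (by linear_combination h2 - h1)
  -- a point near `V` without `e`, `a` and `b` not in `U`
  have key : ∀ x, T x ⊆ T V → x ∉ U a → x ∉ U b → e ∉ T x → T x = {a, b} := by
    intro x h1 h2 h3 h4
    have h5 : T x ⊆ {a, b} := by
      intro i hi
      have := h1 hi
      rw [C.TV] at this
      rcases this with rfl | rfl | h6
      · simp
      · simp
      · rw [mem_singleton_iff] at h6; subst h6; exact absurd hi h4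
    refine Subset.antisymm h5 ?_
    by_contra h6
    by_cases ha : a ∈ T x
    · by_cases hb : b ∈ T x
      · exact h6 (by
          rintro i (rfl | hi)
          · exact ha
          · rw [mem_singleton_iff] at hi; subst hi; exact hb)
      · refine h2 (h.mem_of_single fun i hi => ?_)
        rcases h5 hi with rfl | h7
        · rfl
        · rw [mem_singleton_iff] at h7; subst h7; exact absurd hi hb
    · refine h3 (h.mem_of_single fun i hi => ?_)
      rcases h5 hi with rfl | h7
      · exact absurd hi ha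
      · exact h7
  obtain ⟨y, hVy, hey⟩ := h.partner_XX (C.V_XX h) e
  -- `e` on `S(w)` near `V`
  have h1 : ∀ᶠ x in 𝓝[sphere w 1] V, e ∈ T x := by
    have hside : ∀ᶠ x in 𝓝 V, T x = {a, b} → dist x z = 1 := by
      rcases h.sides C.dp C.hV with hs | hs
      · filter_upwards [hs] with x hx hxT
        by_contra hne
        rcases lt_or_gt_of_ne hne with h2 | h2
        · exact hx.2 h2 (h.sub _ (by rw [hxT]; simp))
        · exact hx.1 h2 (h.sub _ (by rw [hxT]; simp))
      · filter_upwards [hs] with x hx hxT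
        by_contra hne
        rcases lt_or_gt_of_ne hne with h2 | h2
        · exact hx.2 h2 (h.sub _ (by rw [hxT]; simp))
        · exact hx.1 h2 (h.sub _ (by rw [hxT]; simp))
    have hnQ : ∀ᶠ x in 𝓝 V, x ≠ Q := isOpen_ne.mem_nhds C.VQ
    filter_upwards [mem_nhdsWithin_of_mem_nhds hside, mem_nhdsWithin_of_mem_nhds hnQ,
      mem_nhdsWithin_of_mem_nhds (h.nhd V), self_mem_nhdsWithin] with x h2 h3 h4 h5
    by_contra h6
    have h5' : dist x w = 1 := h5
    have h7 := key x h4 (h.mx.notMem (h.sub _ haw) h5') (h.mx.notMem (h.sub _ hbw) h5') h6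
    rcases circle_two C.hV C.hQ (h2 h7) hwV hwQ h5' hzw C.VQ with h8 | h8
    · apply h6
      rw [h8, C.TV]; simp
    · exact h3 h8
  have h2 := h.mx.partner_line hwV (h1.mono fun q hq => h.sub q hq) hVy hey
  -- a point with palette `{a, b}` on `S(z)` near `V`
  have h3 : ∃ᶠ p in 𝓝[sphere z 1] V, T p = {a, b} := by
    intro hcon
    have h4 : ∀ᶠ x in 𝓝[sphere z 1] V, e ∈ T x := by
      filter_upwards [hcon, mem_nhdsWithin_of_mem_nhds (h.nhd V), self_mem_nhdsWithin]
        with x h4 h5 h6
      by_contra h7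
      have h6' : dist x z = 1 := h6
      exact h4 (key x h5 (h.mx.notMem (h.sub _ (by rw [C.dp.pal]; simp)) h6')
        (h.mx.notMem (h.sub _ (by rw [C.dp.pal]; simp)) h6') h7)
    exact hne2 y h2 (h.mx.partner_line C.hV (h4.mono fun q hq => h.sub q hq) hVy hey)
  have h4 : ∀ᶠ p in 𝓝[sphere z 1] V, T (p + Q - z) ⊆ T w ∧ p + Q ≠ 2 * z ∧ p ≠ Q ∧ T p ⊆ T V := by
    refine mem_nhdsWithin_of_mem_nhds ?_
    have hc : Tendsto (fun p : ℂ => p + Q - z) (𝓝 V) (𝓝 w) := by
      have : Continuous fun p : ℂ => p + Q - z := by fun_prop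
      exact this.tendsto V
    have hc2 : Tendsto (fun p : ℂ => p + Q) (𝓝 V) (𝓝 (V + Q)) := by
      have : Continuous fun p : ℂ => p + Q := by fun_prop
      exact this.tendsto V
    filter_upwards [hc.eventually (h.nhd w), hc2.eventually (isOpen_ne.mem_nhds (C.anti h)),
      isOpen_ne.mem_nhds C.VQ, h.nhd V] with p h5 h6 h7 h8
    exact ⟨h5, h6, h7, h8⟩
  obtain ⟨p, hpT, ⟨hp1, hp2, hp3, hp4⟩, hpz⟩ :=
    (h3.and_eventually (h4.and self_mem_nhdsWithin)).exists
  have hpz' : dist p z = 1 := hpz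
  have haz : a ∈ Pal U z := h.sub _ (by rw [C.dp.pal]; simp)
  have hbz : b ∈ Pal U z := h.sub _ (by rw [C.dp.pal]; simp)
  have hpq : dist p (p + Q - z) = 1 := by
    rw [dist_comm, dist_eq_norm, show p + Q - z - p = Q - z by ring, ← dist_eq_norm]; exact C.hQ
  have harc : ∀ i ∈ ({a, b} : Set (Fin 6)), ∀ᶠ q in 𝓝[sphere z 1] p, i ∈ Pal U q := by
    intro i hi
    filter_upwards [mem_nhdsWithin_of_mem_nhds (h.nhd p), self_mem_nhdsWithin] with q h5 h6
    have h6' : dist q z = 1 := h6
    have h7 : T q = {a, b} := by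
      refine key q (h5.trans hp4) (h.mx.notMem haz h6') (h.mx.notMem hbz h6') ?_
      intro h8
      have := h5 h8
      rw [hpT] at this
      rcases this with h9 | h9
      · exact C.ea h9
      · exact C.eb h9
    exact h.sub _ (by rw [h7]; exact hi)
  have hno : ∀ i ∈ ({a, b} : Set (Fin 6)), i ∉ Pal U (p + Q - z) := by
    intro i hi hcon
    rcases h.mx.partner_line hpz' (harc i hi) hpq hcon with h5 | h5
    · exact hp2 (by linear_combination h5)
    · exact hp3 (by linear_combination -h5)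
  refine h.not_sub (x := Q) (y := p + Q - z) ?_ C.cQ ?_
  · rw [dist_eq_norm, show p + Q - z - Q = p - z by ring, ← dist_eq_norm]; exact hpz'
  · intro i hi
    rw [C.TQ]
    rcases C.cover i with rfl | rfl | rfl | rfl | rfl | rfl
    · exact absurd (h.sub _ hi) (hno _ (by simp))
    · exact absurd (h.sub _ hi) (hno _ (by simp))
    · simp
    · simp
    · exact absurd (hp1 hi) hew
    · simp

theorem f_mem (C : Cfg T z V Q a b c d e f) (h : Irr U T) : f ∈ T (V + Q - z) := by
  have := C.swap.e_mem h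
  rwa [add_comm Q V] at this

end Cfg

end Vale.Agent.P032.Six
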